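import Vale.Agent.P146.R3.H501.Gib
import Vale.Agent.P146.Bdl.B42
import Vale.Agent.P146.Bd4.B1

/-!
# P146: the limit of the pressure of the SK model is the Parisi value
-/

namespace Vale.Agent.P146.R3.H501

open MeasureTheory ProbabilityTheory Matrix Filter Topology Vale.Agent.P166 Vale.Agent.P146
open Vale.Agent.P146.R2.H432 (cheb WW)
open Vale.Agent.P146.Sx (pv)

lemma pv_eq (b : ℝ) : pv b = Real.log 2 + Sh.P0 b := rfl

/-- the free energy per spin converges in mean square -/
theorem mean_sq {b : ℝ} (hb : 1 ≤ b) :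
    Tendsto (fun n : ℕ => ∫ g, (freeEnergy n b g / n - pv b) ^ 2 ∂(disorder n)) atTop (𝓝 0) := by
  obtain ⟨C, hC⟩ := Sx.var_upper5 hb
  obtain ⟨C₁, hC₁, -, h1, h2⟩ := Sx.moment hb
  have key : ∀ n : ℕ, 1 ≤ n → ∫ g, (freeEnergy n b g / n - pv b) ^ 2 ∂(disorder n) ≤
      |C| * ((1 + Real.log n) / n) + (C₁ * (n : ℝ) ^ (-(1 / 36) : ℝ)) ^ 2 := by
    intro n hn
    have hn1 : (1 : ℝ) ≤ n := by exact_mod_cast hn
    have hn0 : (0 : ℝ) < n := by linarith
    have lF := Ub.Cv.lin_freeEnergy n b
    have hprob : IsProbabilityMeasure (disorder n) := by unfold disorder; infer_instance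
    have i1 : Integrable (freeEnergy n b) (disorder n) := lF.dom.integrable
    have i2 : Integrable (fun g => freeEnergy n b g ^ 2) (disorder n) := (lF.dom.pow 2).integrable
    have hmem : MemLp (freeEnergy n b) 2 (disorder n) := by
      rw [memLp_two_iff_integrable_sq lF.cont.aestronglyMeasurable]
      exact i2
    have hvar : Var[freeEnergy n b; disorder n] =
        ∫ g, freeEnergy n b g ^ 2 ∂(disorder n) - (∫ g, freeEnergy n b g ∂(disorder n)) ^ 2 := by
      rw [variance_eq_sub hmem]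
      rfl
    obtain ⟨E, hE⟩ : ∃ E, E = ∫ g, freeEnergy n b g ∂(disorder n) := ⟨_, rfl⟩
    have e1 : ∫ g, (freeEnergy n b g / n - pv b) ^ 2 ∂(disorder n) =
        1 / (n : ℝ) ^ 2 * ∫ g, freeEnergy n b g ^ 2 ∂(disorder n) + (-(2 * pv b / n)) * E +
          pv b ^ 2 := by
      have e2 : ∀ g, (freeEnergy n b g / n - pv b) ^ 2 =
          1 / (n : ℝ) ^ 2 * freeEnergy n b g ^ 2 + (-(2 * pv b / n)) * freeEnergy n b g +
            pv b ^ 2 := by
        intro g
        field_simp
        ring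
      simp_rw [e2]
      have i3 : Integrable (fun g => 1 / (n : ℝ) ^ 2 * freeEnergy n b g ^ 2) (disorder n) :=
        i2.const_mul _
      have i4 : Integrable (fun g => (-(2 * pv b / n)) * freeEnergy n b g) (disorder n) :=
        i1.const_mul _
      have i5 : Integrable (fun g => 1 / (n : ℝ) ^ 2 * freeEnergy n b g ^ 2 +
          (-(2 * pv b / n)) * freeEnergy n b g) (disorder n) := i3.add i4
      rw [integral_add i5 (integrable_const _), integral_add i3 i4, integral_const_mul,
        integral_const_mul, integral_const, ← hE]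
      simp
    have e3 : ∫ g, freeEnergy n b g ^ 2 ∂(disorder n) = Var[freeEnergy n b; disorder n] + E ^ 2 := by
      rw [hvar, hE]
      ring
    rw [e1, e3]
    have e4 : 1 / (n : ℝ) ^ 2 * (Var[freeEnergy n b; disorder n] + E ^ 2) +
        (-(2 * pv b / n)) * E + pv b ^ 2 = Var[freeEnergy n b; disorder n] / (n : ℝ) ^ 2 +
          ((n * pv b - E) / n) ^ 2 := by
      field_simp
      ring
    rw [e4]
    have hlog : 0 ≤ Real.log n := Real.log_nonneg hn1
    refine add_le_add ?_ ?_
    · rw [div_le_iff₀ (by positivity)]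
      refine (hC n hn).trans ?_
      have h3 : (n : ℝ) ^ (44 / 45 : ℝ) ≤ n := by
        calc (n : ℝ) ^ (44 / 45 : ℝ) ≤ (n : ℝ) ^ (1 : ℝ) :=
              Real.rpow_le_rpow_of_exponent_le hn1 (by norm_num)
          _ = n := Real.rpow_one _
      have h4 : C * (n : ℝ) ^ (44 / 45 : ℝ) ≤ |C| * n :=
        mul_le_mul (le_abs_self C) h3 (by positivity) (abs_nonneg C)
      calc C * (n : ℝ) ^ (44 / 45 : ℝ) * (1 + Real.log n) ≤ |C| * n * (1 + Real.log n) :=
            mul_le_mul_of_nonneg_right h4 (by linarith)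
        _ = |C| * ((1 + Real.log n) / n) * (n : ℝ) ^ 2 := by field_simp
    · have h3 : 0 ≤ (n * pv b - E) / n := by
        rw [hE]
        have := h1 n hn
        exact div_nonneg (by linarith) hn0.le
      refine pow_le_pow_left₀ h3 ?_ 2
      rw [div_le_iff₀ hn0]
      have h4 := h2 n hn
      rw [← hE] at h4
      have h5 : (n : ℝ) ^ (-(1 / 36) : ℝ) * n = (n : ℝ) ^ (35 / 36 : ℝ) := by
        calc (n : ℝ) ^ (-(1 / 36) : ℝ) * n = (n : ℝ) ^ (-(1 / 36) : ℝ) * (n : ℝ) ^ (1 : ℝ) := by
              rw [Real.rpow_one]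
          _ = (n : ℝ) ^ (35 / 36 : ℝ) := by
              rw [← Real.rpow_add hn0]
              norm_num
      rw [mul_assoc, h5]
      linarith
  have l1 : Tendsto (fun n : ℕ => (1 + Real.log n) / (n : ℝ)) atTop (𝓝 0) := by
    have h3 := (Real.isLittleO_log_id_atTop.tendsto_div_nhds_zero).comp
      (tendsto_natCast_atTop_atTop (R := ℝ))
    have h4 := (tendsto_one_div_atTop_nhds_zero_nat (𝕜 := ℝ)).add h3
    rw [add_zero] at h4
    refine h4.congr fun n => ?_
    simp only [Function.comp, id]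
    ring
  have l2 : Tendsto (fun n : ℕ => (n : ℝ) ^ (-(1 / 36) : ℝ)) atTop (𝓝 0) :=
    (tendsto_rpow_neg_atTop (by norm_num)).comp tendsto_natCast_atTop_atTop
  have l3 : Tendsto (fun n : ℕ => |C| * ((1 + Real.log n) / n) +
      (C₁ * (n : ℝ) ^ (-(1 / 36) : ℝ)) ^ 2) atTop (𝓝 0) := by
    have h3 := (l1.const_mul |C|).add ((l2.const_mul C₁).pow 2)
    simpa using h3
  refine tendsto_of_tendsto_of_tendsto_of_le_of_le' tendsto_const_nhds l3
    (Eventually.of_forall fun n => integral_nonneg fun g => sq_nonneg _) ?_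
  filter_upwards [eventually_ge_atTop 1] with n hn
  exact key n hn

/-- an almost sure limit of the free energy is the Parisi value -/
theorem as_eq {Ω : Type} [MeasurableSpace Ω] (Q : Measure Ω) [IsProbabilityMeasure Q]
    (gg : (N : ℕ) → Ω → Pair N → ℝ) (hgm : ∀ N, Measurable (gg N))
    (hgg : ∀ N, Q.map (gg N) = disorder N) {b : ℝ} (hb : 1 ≤ b) {c : ℝ}
    (h : ∀ᵐ ω ∂Q, Tendsto (fun N : ℕ => freeEnergy N b (gg N ω) / N) atTop (𝓝 c)) :
    c = pv b := by
  obtain ⟨X, hX⟩ : ∃ X : (N : ℕ) → (Pair N → ℝ) → ℝ,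
      X = fun N g => min ((freeEnergy N b g / N - pv b) ^ 2) 1 := ⟨_, rfl⟩
  have hcont : ∀ N, Continuous (X N) := by
    intro N
    rw [hX]
    exact ((((freeEnergy_dom N b).cont.div_const _).sub continuous_const).pow 2).min
      continuous_const
  have hb1 : ∀ N g, ‖X N g‖ ≤ 1 := by
    intro N g
    rw [hX, Real.norm_eq_abs, abs_le]
    have h0 : 0 ≤ min ((freeEnergy N b g / N - pv b) ^ 2) 1 := le_min (sq_nonneg _) zero_le_one
    exact ⟨by linarith, min_le_right _ _⟩
  have l1 : Tendsto (fun N : ℕ => ∫ ω, X N (gg N ω) ∂Q) atTop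
      (𝓝 (∫ _ : Ω, min ((c - pv b) ^ 2) 1 ∂Q)) := by
    refine tendsto_integral_of_dominated_convergence (fun _ => (1 : ℝ))
      (fun N => ((hcont N).measurable.comp (hgm N)).aestronglyMeasurable) (integrable_const _)
      (fun N => Eventually.of_forall fun ω => hb1 N _) ?_
    filter_upwards [h] with ω hω
    rw [hX]
    exact ((hω.sub_const _).pow 2).min tendsto_const_nhds
  have l2 : Tendsto (fun N : ℕ => ∫ ω, X N (gg N ω) ∂Q) atTop (𝓝 0) := by
    have e1 : ∀ N, ∫ ω, X N (gg N ω) ∂Q = ∫ g, X N g ∂(disorder N) := by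
      intro N
      rw [← hgg N, integral_map (hgm N).aemeasurable (hcont N).measurable.aestronglyMeasurable]
    simp_rw [e1]
    refine squeeze_zero (fun N => ?_) (fun N => ?_) (mean_sq hb)
    · refine integral_nonneg fun g => ?_
      rw [hX]
      exact le_min (sq_nonneg _) zero_le_one
    · have hprob : IsProbabilityMeasure (disorder N) := by unfold disorder; infer_instance
      refine integral_mono (Integrable.mono' (integrable_const (1 : ℝ))
        (hcont N).measurable.aestronglyMeasurable (Eventually.of_forall fun g => hb1 N g)) ?_ ?_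
      · have d : Dom (fun g => (freeEnergy N b g / N - pv b) ^ 2) := by
          have d1 := (((freeEnergy_dom N b).const_mul (N : ℝ)⁻¹).sub (Dom.const (pv b))).pow 2
          refine d1.congr fun g => ?_
          rw [div_eq_inv_mul]
        exact d.integrable
      · intro g
        rw [hX]
        exact min_le_left _ _
  have h3 := tendsto_nhds_unique l1 l2
  rw [integral_const, probReal_univ, one_smul] at h3
  have h4 : (c - pv b) ^ 2 = 0 := by
    rcases min_choice ((c - pv b) ^ 2) 1 with h5 | h5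
    · rw [h5] at h3
      exact h3
    · rw [h5] at h3
      norm_num at h3
  have h5 : c - pv b = 0 := by
    rcases pow_eq_zero_iff (two_ne_zero) |>.1 h4 with h6
    exact h6
  linarith

lemma sum_exp_sk {N : ℕ} (b : ℝ) (g : Pair N → ℝ) :
    ∑ σ ∈ cb N, Real.exp (1 / 2 * qf (b • WW g) σ) = partitionFn N b g := by
  rw [sum_cb, partitionFn]
  exact Finset.sum_congr rfl fun σ _ => by rw [half_qf]

/-- the pressure with a diagonal -/
lemma pr_sk {N : ℕ} (hN : 0 < N) (b : ℝ) (g : Pair N → ℝ) (J : Matrix (Fin N) (Fin N) ℝ)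
    (hoff : ∀ i j : Fin N, i ≠ j → J i j = WW g i j) :
    pressure N 1 (b • J) = freeEnergy N b g / N - Real.log 2 + b / 2 * ((∑ i, J i i) / N) := by
  have hN0 : (N : ℝ) ≠ 0 := by positivity
  have hd : ∀ i, WW g i i = 0 := by
    intro i
    show Vale.Agent.P150.gsym g i i / Real.sqrt N = 0
    rw [Vale.Agent.P150.gsym_self, zero_div]
  have h1 : ∀ σ ∈ cb N, 1 / 2 * qf (b • J) σ = b / 2 * (∑ i, J i i) +
      1 / 2 * qf (b • WW g) σ := by
    intro σ hσ
    have h2 : ∀ K : Matrix (Fin N) (Fin N) ℝ, qf (b • K) σ = b * qf K σ := by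
      intro K
      unfold qf
      rw [Matrix.smul_mulVec, dotProduct_smul, smul_eq_mul]
    have h3 : qf J σ = ∑ i, J i i + qf (WW g) σ := by
      rw [qf_eq, qf_eq, ← Finset.sum_add_distrib]
      refine Finset.sum_congr rfl fun i _ => ?_
      have h4 : ∀ j, J i j * (σ i * σ j) = WW g i j * (σ i * σ j) +
          if j = i then J i i else 0 := by
        intro j
        split_ifs with h5
        · subst h5
          rw [cb_sq hσ, hd]
          ring
        · rw [hoff i j (Ne.symm h5), add_zero]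
      simp_rw [h4]
      rw [Finset.sum_add_distrib, Finset.sum_ite_eq' Finset.univ i, if_pos (Finset.mem_univ i),
        add_comm]
    rw [h2, h2, h3]
    ring
  have h2 : ∑ σ ∈ cb N, Real.exp (1 / 2 * qf (b • J) σ) =
      Real.exp (b / 2 * ∑ i, J i i) * partitionFn N b g := by
    rw [← sum_exp_sk, Finset.mul_sum]
    refine Finset.sum_congr rfl fun σ hσ => ?_
    rw [h1 σ hσ, Real.exp_add]
  have hZ : 0 < partitionFn N b g := by
    rw [← sum_exp_sk]
    exact sum_exp_pos (cb_ne N) _
  rw [pr_one, h2, Real.log_mul (Real.exp_pos _).ne' hZ.ne', Real.log_exp, Real.log_inv]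
  unfold freeEnergy
  field_simp
  ring

/-- **The Parisi value is the almost sure limit.** -/
theorem p_eq {Ω : Type} [MeasurableSpace Ω] (Q : Measure Ω) [IsProbabilityMeasure Q]
    (J : (N : ℕ) → Ω → Matrix (Fin N) (Fin N) ℝ) (gg : (N : ℕ) → Ω → Pair N → ℝ)
    (hgm : ∀ N, Measurable (gg N)) (hgg : ∀ N, Q.map (gg N) = disorder N)
    (hoff : ∀ N ω (i j : Fin N), i ≠ j → J N ω i j = WW (gg N ω) i j) {b : ℝ} (hb : 1 ≤ b)
    (hdiff : ∀ᵐ ω ∂Q, ∀ ε : ℝ, 0 < ε → ∀ᶠ N : ℕ in atTop, ∀ σ ∈ cb N,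
      |qf (cheb 1 (J N ω) - cheb 1 (WW (gg N ω))) σ| ≤ ε * N) {p : ℝ}
    (h : ∀ᵐ ω ∂Q, Tendsto (fun N => pressure N 1 (b • J N ω)) atTop (𝓝 p)) :
    p = Sh.P0 b := by
  have h1 : ∀ᵐ ω ∂Q, Tendsto (fun N : ℕ => freeEnergy N b (gg N ω) / N) atTop
      (𝓝 (p + Real.log 2)) := by
    filter_upwards [hdiff, h] with ω h2 h3
    have l1 : Tendsto (fun N : ℕ => (∑ i, J N ω i i) / N) atTop (𝓝 0) := by
      rw [Metric.tendsto_atTop']
      intro ε hε
      have h4 := (h2 (ε / 2) (by positivity)).and (eventually_gt_atTop 0)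
      rw [eventually_atTop] at h4
      obtain ⟨N0, h4⟩ := h4
      refine ⟨N0, fun N hN => ?_⟩
      obtain ⟨h5, h6⟩ := h4 N hN.le
      have hN0 : (0 : ℝ) < N := by exact_mod_cast h6
      have h7 := h5 (fun _ => 1) (by simp)
      have e1 : qf (cheb 1 (J N ω) - cheb 1 (WW (gg N ω))) (fun _ => 1) = ∑ i, J N ω i i := by
        rw [qf_eq]
        refine Finset.sum_congr rfl fun i _ => ?_
        have hd : WW (gg N ω) i i = 0 := by
          show Vale.Agent.P150.gsym (gg N ω) i i / Real.sqrt N = 0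
          rw [Vale.Agent.P150.gsym_self, zero_div]
        have h8 : ∀ j, (cheb 1 (J N ω) - cheb 1 (WW (gg N ω))) i j * (1 * 1) =
            if j = i then J N ω i i else 0 := by
          intro j
          rw [mul_one, mul_one, Matrix.sub_apply]
          show J N ω i j - WW (gg N ω) i j = _
          split_ifs with h9
          · subst h9
            rw [hd, sub_zero]
          · rw [hoff N ω i j (Ne.symm h9), sub_self]
        simp_rw [h8]
        rw [Finset.sum_ite_eq' Finset.univ i, if_pos (Finset.mem_univ i)]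
      rw [e1] at h7
      rw [Real.dist_eq, sub_zero, abs_div, abs_of_pos hN0, div_lt_iff₀ hN0]
      refine lt_of_le_of_lt h7 ?_
      exact mul_lt_mul_of_pos_right (by linarith) hN0
    have l2 := (h3.add_const (Real.log 2)).sub (l1.const_mul (b / 2))
    rw [mul_zero, sub_zero] at l2
    refine l2.congr' ?_
    filter_upwards [eventually_gt_atTop 0] with N hN
    rw [pr_sk hN b (gg N ω) (J N ω) (hoff N ω)]
    ring
  have h2 := as_eq Q gg hgm hgg hb h1
  rw [pv_eq] at h2
  linarith

end Vale.Agent.P146.R3.H501
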