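import Vale.Agent.P146.R3.H501.N4
import Vale.Agent.P146.R3.H501.P0
import Vale.Agent.P146.R3.H432.Main
import Vale.Agent.P146.R3.H432.Dia
import Vale.Agent.P146.R3.H49.Supp
import Vale.Agent.P146.R3.H597.Cut

/-!
# P146: the hypotheses of the limit theorem for `n⁻¹ ⟨σ·U_k(W)σ⟩` hold
-/

namespace Vale.Agent.P146.R3.H501

open MeasureTheory Matrix Filter Topology Vale.Agent.P166 Vale.Agent.P166.H295 Vale.Agent.P146
open Vale.Agent.P146.R2.H432 (cheb WW)
open Vale.Agent.P146.R3.H432 (Qm Om gg)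
open Vale.Agent.P146.Sk (Wm)

lemma Yk_Yn (b : ℝ) (n k : ℕ) (g : Pair n → ℝ) : Yk n k b g = Yn b n k g := by
  unfold Yk Yn
  congr 1
  refine Finset.sum_congr rfl fun j _ => Finset.sum_congr rfl fun u _ => ?_
  unfold R2.f2
  congr 2
  funext σ
  rw [mul_comm]

lemma off_diag (N : ℕ) (ω : Om) (i j : Fin N) (h : i ≠ j) :
    Wm N (H432.zz N ω) i j = WW (gg N ω) i j := by
  rw [H432.Wm_eq, Matrix.add_apply, Matrix.diagonal_apply_ne _ h, add_zero]

lemma transfer (k : ℕ) : ∀ᵐ ω ∂Qm, ∀ ε : ℝ, 0 < ε → ∀ᶠ N : ℕ in atTop, ∀ σ ∈ cb N,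
    |qf (cheb k (Wm N (H432.zz N ω)) - cheb k (WW (gg N ω))) σ| ≤ ε * N := by
  filter_upwards [H432.ae_transfer k] with ω h ε hε
  filter_upwards [h ε hε] with N hN σ hσ
  refine hN σ fun i => ?_
  have h1 := Fintype.mem_piFinset.1 hσ i
  simpa only [Finset.mem_insert, Finset.mem_singleton] using h1

/-- **The limit of `n⁻¹ ⟨σ·U_k(W)σ⟩`.** -/
theorem n4_sk (b : ℝ) (k : ℕ) :
    ∃ f : ℝ → ℝ, ConvexOn ℝ Set.univ f ∧ (∀ s, IsGLB (PV 1 (muS b k s)) (f s)) ∧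
      ∀ c, HasDerivAt f c 0 →
        (∀ᵐ ω ∂Qm, Tendsto (fun N : ℕ => Yn b N k (gg N ω)) atTop (𝓝 c)) ∧
        Tendsto (fun n : ℕ => ∫ g, (Yn b n k g - c) ^ 2 ∂(disorder n)) atTop (𝓝 0) := by
  obtain ⟨f, h1, h2, h3⟩ := n4 Qm (fun N ω => Wm N (H432.zz N ω)) (fun N ω => gg N ω)
    H432.measurable_gg H432.map_gg off_diag b k (transfer k)
    (fun s => H49.isProb_muS b k s) (fun s => H49.isCompact_support b k s)
    (fun s => H432.ensemble b k s)
  refine ⟨f, h1, h2, fun c hc => ?_⟩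
  have h4 := h3 c hc
  simp only [Yk_Yn] at h4
  exact h4

lemma muS_zero (b : ℝ) (k : ℕ) : muS b k 0 = muS b 0 0 := by
  unfold muS
  congr 1
  funext x
  simp [hs]

/-- **The value of the variational problem of P166 for the semicircle law is the Parisi value.** -/
theorem glb_sk {b : ℝ} (hb : 1 ≤ b) : IsGLB (PV 1 (muS b 0 0)) (Sh.P0 b) := by
  have hp : IsProbabilityMeasure (muS b 0 0) := H49.isProb_muS b 0 0
  obtain ⟨p, h1, h2⟩ := exists_pressure (muS b 0 0) (H49.isCompact_support b 0 0)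
  have h3 := h2 Om Qm _ (H432.ensemble b 0 0)
  simp only [mul_zero, zero_smul, add_zero] at h3
  have h4 := p_eq Qm (fun N ω => Wm N (H432.zz N ω)) (fun N ω => gg N ω)
    H432.measurable_gg H432.map_gg off_diag hb (transfer 1) h3
  rwa [h4] at h1

end Vale.Agent.P146.R3.H501
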