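import Vale.Agent.P166.Defs

/-!
# P146: supporting lines of the pressure in a direction, and convergence of the derivatives
-/

namespace Vale.Agent.P146.R3.H501

open MeasureTheory Matrix Filter Topology Vale.Agent.P166

section lse

variable {α : Type*}

lemma sum_exp_pos {S : Finset α} (hS : S.Nonempty) (A : α → ℝ) :
    0 < ∑ x ∈ S, Real.exp (A x) :=
  Finset.sum_pos (fun _ _ => Real.exp_pos _) hS

/-- supporting line of `s ↦ log ∑ exp (A + s B)` -/
lemma lse {S : Finset α} (hS : S.Nonempty) (A B : α → ℝ) (s : ℝ) :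
    Real.log (∑ x ∈ S, Real.exp (A x)) +
      s * ((∑ x ∈ S, B x * Real.exp (A x)) / ∑ x ∈ S, Real.exp (A x)) ≤
    Real.log (∑ x ∈ S, Real.exp (A x + s * B x)) := by
  obtain ⟨Z, hZ⟩ : ∃ Z, Z = ∑ x ∈ S, Real.exp (A x) := ⟨_, rfl⟩
  obtain ⟨m, hm⟩ : ∃ m, m = (∑ x ∈ S, B x * Real.exp (A x)) / Z := ⟨_, rfl⟩
  have hZ0 : 0 < Z := by rw [hZ]; exact sum_exp_pos hS A
  rw [← hZ, ← hm]
  have h1 : Real.exp (s * m) * Z ≤ ∑ x ∈ S, Real.exp (A x + s * B x) := by
    have h2 : ∀ x ∈ S, Real.exp (s * m) * (Real.exp (A x) * (1 + s * (B x - m))) ≤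
        Real.exp (A x + s * B x) := by
      intro x _
      have h3 : Real.exp (A x + s * B x) =
          Real.exp (s * m) * (Real.exp (A x) * Real.exp (s * (B x - m))) := by
        rw [← Real.exp_add, ← Real.exp_add]
        congr 1
        ring
      rw [h3]
      refine mul_le_mul_of_nonneg_left (mul_le_mul_of_nonneg_left ?_ (Real.exp_pos _).le)
        (Real.exp_pos _).le
      linarith [Real.add_one_le_exp (s * (B x - m))]
    refine le_trans (le_of_eq ?_) (Finset.sum_le_sum h2)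
    rw [← Finset.mul_sum]
    congr 1
    have h4 : ∑ x ∈ S, Real.exp (A x) * (1 + s * (B x - m)) =
        (1 - s * m) * ∑ x ∈ S, Real.exp (A x) + s * ∑ x ∈ S, B x * Real.exp (A x) := by
      rw [Finset.mul_sum, Finset.mul_sum, ← Finset.sum_add_distrib]
      exact Finset.sum_congr rfl fun x _ => by ring
    have h5 : ∑ x ∈ S, B x * Real.exp (A x) = m * Z := by
      rw [hm, div_mul_cancel₀ _ hZ0.ne']
    rw [h4, h5, ← hZ]
    ring
  have h6 := Real.log_le_log (by positivity) h1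
  rw [Real.log_mul (Real.exp_pos _).ne' hZ0.ne', Real.log_exp] at h6
  linarith

end lse

/-- the spin configurations with real values -/
noncomputable abbrev cb (N : ℕ) : Finset (Fin N → ℝ) := Fintype.piFinset (fun _ : Fin N => ({-1, 1} : Finset ℝ))

lemma cb_ne (N : ℕ) : (cb N).Nonempty := ⟨fun _ => 1, by simp⟩

lemma cb_sq {N : ℕ} {σ : Fin N → ℝ} (hσ : σ ∈ cb N) (i : Fin N) : σ i * σ i = 1 := by
  have h := Fintype.mem_piFinset.1 hσ i
  simp only [Finset.mem_insert, Finset.mem_singleton] at h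
  rcases h with h | h <;> rw [h] <;> norm_num

/-- the quadratic form -/
noncomputable def qf {N : ℕ} (K : Matrix (Fin N) (Fin N) ℝ) (σ : Fin N → ℝ) : ℝ :=
  σ ⬝ᵥ (K *ᵥ σ)

lemma qf_eq {N : ℕ} (K : Matrix (Fin N) (Fin N) ℝ) (σ : Fin N → ℝ) :
    qf K σ = ∑ i, ∑ j, K i j * (σ i * σ j) := by
  unfold qf Matrix.mulVec dotProduct
  refine Finset.sum_congr rfl fun i _ => ?_
  rw [Finset.mul_sum]
  exact Finset.sum_congr rfl fun j _ => by ring

lemma qf_add {N : ℕ} (J K : Matrix (Fin N) (Fin N) ℝ) (s : ℝ) (σ : Fin N → ℝ) :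
    qf (J + s • K) σ = qf J σ + s * qf K σ := by
  unfold qf
  rw [Matrix.add_mulVec, Matrix.smul_mulVec, dotProduct_add, dotProduct_smul, smul_eq_mul]

/-- the Gibbs average of the quadratic form of `K` for the weights `exp (σᵀ J σ / 2)` -/
noncomputable def gA (N : ℕ) (J K : Matrix (Fin N) (Fin N) ℝ) : ℝ :=
  (∑ σ ∈ cb N, qf K σ * Real.exp (1 / 2 * qf J σ)) / ∑ σ ∈ cb N, Real.exp (1 / 2 * qf J σ)

lemma pr_one {N : ℕ} (J : Matrix (Fin N) (Fin N) ℝ) :
    pressure N 1 J = (1 / (N : ℝ)) * (N * Real.log 2⁻¹ +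
      Real.log (∑ σ ∈ cb N, Real.exp (1 / 2 * qf J σ))) := by
  unfold pressure
  rw [Real.log_mul (by positivity) (sum_exp_pos (cb_ne N) _).ne', Real.log_pow]
  rfl

/-- supporting line of the pressure in the direction `K` -/
theorem pr_sub {N : ℕ} (J K : Matrix (Fin N) (Fin N) ℝ) (s : ℝ) :
    pressure N 1 J + s * (gA N J K / N) ≤ pressure N 1 (J + (2 * s) • K) := by
  rw [pr_one, pr_one]
  have h := lse (cb_ne N) (fun σ => 1 / 2 * qf J σ) (fun σ => qf K σ) s
  have e1 : ∑ σ ∈ cb N, Real.exp (1 / 2 * qf (J + (2 * s) • K) σ) =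
      ∑ σ ∈ cb N, Real.exp (1 / 2 * qf J σ + s * qf K σ) := by
    refine Finset.sum_congr rfl fun σ _ => ?_
    rw [qf_add]
    congr 1
    ring
  rw [e1]
  have h2 := mul_le_mul_of_nonneg_left (add_le_add_right h ((N : ℝ) * Real.log 2⁻¹))
    (by positivity : (0 : ℝ) ≤ 1 / N)
  refine le_trans (le_of_eq ?_) h2
  unfold gA
  ring

lemma convex_of_support {f : ℝ → ℝ} (h : ∀ x, ∃ a, ∀ y, f x + (y - x) * a ≤ f y) :
    ConvexOn ℝ Set.univ f := by
  refine ⟨convex_univ, fun x _ y _ a b ha hb hab => ?_⟩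
  obtain ⟨c, hc⟩ := h (a • x + b • y)
  have h1 := mul_le_mul_of_nonneg_left (hc x) ha
  have h2 := mul_le_mul_of_nonneg_left (hc y) hb
  simp only [smul_eq_mul] at h1 h2 ⊢
  have hb' : b = 1 - a := by linarith
  subst hb'
  nlinarith

theorem pr_convex {N : ℕ} (J K : Matrix (Fin N) (Fin N) ℝ) :
    ConvexOn ℝ Set.univ fun s : ℝ => pressure N 1 (J + (2 * s) • K) := by
  refine convex_of_support fun x => ⟨gA N (J + (2 * x) • K) K / N, fun y => ?_⟩
  have h := pr_sub (J + (2 * x) • K) K (y - x)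
  refine h.trans (le_of_eq ?_)
  congr 1
  rw [add_assoc, ← add_smul]
  congr 2
  ring

lemma convex_lim {F : ℕ → ℝ → ℝ} {f : ℝ → ℝ} {x y a b : ℝ}
    (hF : ∀ N, ConvexOn ℝ Set.univ (F N)) (ha : 0 ≤ a) (hb : 0 ≤ b) (hab : a + b = 1)
    (h1 : Tendsto (fun N => F N x) atTop (𝓝 (f x)))
    (h2 : Tendsto (fun N => F N y) atTop (𝓝 (f y)))
    (h3 : Tendsto (fun N => F N (a • x + b • y)) atTop (𝓝 (f (a • x + b • y)))) :
    f (a • x + b • y) ≤ a • f x + b • f y := by
  refine le_of_tendsto_of_tendsto' h3 ((h1.const_smul a).add (h2.const_smul b)) fun N => ?_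
  exact (hF N).2 (Set.mem_univ x) (Set.mem_univ y) ha hb hab

/-- subgradients at `0` converge to the derivative of the limit -/
theorem tendsto_deriv {F : ℕ → ℝ → ℝ} {a : ℕ → ℝ} {f : ℝ → ℝ} {c : ℝ}
    (hsub : ∀ N s, F N 0 + s * a N ≤ F N s)
    (hlim : ∀ q : ℚ, Tendsto (fun N => F N q) atTop (𝓝 (f q))) (hd : HasDerivAt f c 0) :
    Tendsto a atTop (𝓝 c) := by
  have hl0 : Tendsto (fun N => F N 0) atTop (𝓝 (f 0)) := by
    have := hlim 0
    simpa using this
  rw [hasDerivAt_iff_isLittleO, Asymptotics.isLittleO_iff] at hd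
  rw [Metric.tendsto_atTop']
  intro ε hε
  have h1 := hd (c := ε / 4) (by positivity)
  rw [Metric.eventually_nhds_iff] at h1
  obtain ⟨δ, hδ, h1⟩ := h1
  obtain ⟨q, hq0, hq1⟩ := exists_rat_btwn hδ
  have hq0' : (0 : ℝ) < q := hq0
  have e1 : |f q - f 0 - q * c| ≤ ε / 4 * q := by
    have h2 := h1 (y := (q : ℝ)) (by rw [Real.dist_eq, sub_zero, abs_of_pos hq0']; exact hq1)
    simpa only [sub_zero, smul_eq_mul, Real.norm_eq_abs, abs_of_pos hq0'] using h2
  have e2 : |f (-q) - f 0 + q * c| ≤ ε / 4 * q := by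
    have h2 := h1 (y := (-q : ℝ)) (by
      rw [Real.dist_eq, sub_zero, abs_neg, abs_of_pos hq0']; exact hq1)
    simpa only [sub_zero, smul_eq_mul, Real.norm_eq_abs, abs_neg, abs_of_pos hq0', neg_mul,
      sub_neg_eq_add] using h2
  have l1 : Tendsto (fun N => F N q - F N 0) atTop (𝓝 (f q - f 0)) := (hlim q).sub hl0
  have l2 : Tendsto (fun N => F N (-q) - F N 0) atTop (𝓝 (f (-q) - f 0)) := by
    have := hlim (-q)
    push_cast at this
    exact this.sub hl0
  have hm : (0 : ℝ) < ε / 4 * q := by positivity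
  obtain ⟨N1, h1⟩ := (Metric.tendsto_atTop'.1 l1) _ hm
  obtain ⟨N2, h2⟩ := (Metric.tendsto_atTop'.1 l2) _ hm
  refine ⟨max N1 N2, fun N hN => ?_⟩
  have g1 := h1 N (lt_of_le_of_lt (le_max_left _ _) hN)
  have g2 := h2 N (lt_of_le_of_lt (le_max_right _ _) hN)
  rw [Real.dist_eq, abs_lt] at g1 g2
  rw [abs_le] at e1 e2
  have s1 := hsub N q
  have s2 := hsub N (-q)
  rw [Real.dist_eq, abs_lt]
  constructor
  · have : q * (a N - c) > -(ε * q) := by nlinarith
    nlinarith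
  · have : q * (a N - c) < ε * q := by nlinarith
    nlinarith

end Vale.Agent.P146.R3.H501
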