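import Vale.Agent.P146.R3.X.HMain
import Vale.Agent.P146.R3.Def

/-!
# P146: the limit of the pressure of an invariant ensemble
-/

namespace Vale.Agent.P146.R3.H501

open MeasureTheory Matrix Filter Topology Vale.Agent.P166 Vale.Agent.P166.H295
  Vale.Agent.P157.Par

lemma exists_haar (N : ℕ) [MeasurableSpace (orthogonalGroup (Fin N) ℝ)]
    [BorelSpace (orthogonalGroup (Fin N) ℝ)] :
    ∃ ν : Measure (orthogonalGroup (Fin N) ℝ), IsProbabilityMeasure ν ∧ ν.IsMulLeftInvariant := by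
  have : CompactSpace (orthogonalGroup (Fin N) ℝ) :=
    isCompact_iff_compactSpace.1 (isCompact_orth (N := N))
  refine ⟨Measure.haarMeasure ⊤, ⟨?_⟩, inferInstance⟩
  have h := Measure.haarMeasure_self
    (K₀ := (⊤ : TopologicalSpace.PositiveCompacts (orthogonalGroup (Fin N) ℝ)))
  simpa using h

/-- The value `p` of the variational problem is the almost sure limit of the pressure at
temperature one, for every invariant ensemble with the spectral law `μ`. -/
theorem exists_pressure (μ : Measure ℝ) [IsProbabilityMeasure μ] (hμ : IsCompact μ.support) :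
    ∃ p : ℝ, IsGLB (PV 1 μ) p ∧
      ∀ (Ω : Type) [MeasurableSpace Ω] (Q : Measure Ω) [IsProbabilityMeasure Q]
        (J : (N : ℕ) → Ω → Matrix (Fin N) (Fin N) ℝ), InvariantEnsemble Q J μ →
        ∀ᵐ ω ∂Q, Tendsto (fun N => pressure N 1 (J N ω)) atTop (𝓝 p) := by
  let i1 : ∀ N, MeasurableSpace (orthogonalGroup (Fin N) ℝ) := fun N => borel _
  have i2 : ∀ N, BorelSpace (orthogonalGroup (Fin N) ℝ) := fun N => ⟨rfl⟩
  choose ν hν1 hν2 using fun N => exists_haar N
  obtain ⟨P, hP⟩ := exists_P ν μ hμ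
  obtain ⟨Λ₀, hΛ₀⟩ := exists_admissible μ hμ
  obtain ⟨hconv, e, C, hC, hL⟩ := hP.lim hΛ₀
  refine ⟨P 1, hP.glb 1 one_pos, ?_⟩
  intro Ω _ Q _ J hJ
  filter_upwards [hP.as_ensemble hC hL Q J hJ] with ω hω
  exact (hω.1 1).tendsto_at ⟨zero_le_one, le_rfl⟩

/-- the limits of the pressures in the direction `K` -/
theorem exists_lim (b : ℝ) (k : ℕ) (hp : ∀ s, IsProbabilityMeasure (muS b k s))
    (hc : ∀ s, IsCompact (muS b k s).support) :
    ∃ f : ℝ → ℝ, (∀ s, IsGLB (PV 1 (muS b k s)) (f s)) ∧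
      ∀ (Ω : Type) [MeasurableSpace Ω] (Q : Measure Ω) [IsProbabilityMeasure Q]
        (J K : (N : ℕ) → Ω → Matrix (Fin N) (Fin N) ℝ),
        (∀ s, InvariantEnsemble Q (fun N ω => J N ω + (2 * s) • K N ω) (muS b k s)) →
        ∀ s, ∀ᵐ ω ∂Q, Tendsto (fun N => pressure N 1 (J N ω + (2 * s) • K N ω)) atTop
          (𝓝 (f s)) := by
  choose f hf1 hf2 using fun s =>
    have := hp s
    exists_pressure (muS b k s) (hc s)
  exact ⟨f, hf1, fun Ω _ Q _ J K h s => hf2 s Ω Q _ (h s)⟩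

end Vale.Agent.P146.R3.H501
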