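import Mathlib
import Vale.Agent.P146.Bd3.B2
import Vale.Agent.P146.Bd3.B5

/-!
# P146, R7 (A-iii): comparison of the tilted averages of two systems
-/

open MeasureTheory ProbabilityTheory Filter Topology

namespace Vale.Agent.P146.R3.H501.Tr

set_option linter.unusedSectionVars false
set_option linter.all false

open Vale.Agent.P157 Vale.Agent.P157.Lv Vale.Agent.P157.Lv.Sy

section gen

variable {ι X : Type} [Fintype ι] [Fintype X] [Nonempty X] {S : Sy ι X}
  {H' : (ι → ℝ) → X → ℝ}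

/-- Integration of `exp (b · z)` against a function which does not depend on the coordinates
of the support of `b`. -/
theorem int_exp_lin (b : ι → ℝ) {G : (ι → ℝ) → ℝ} (hG : ∀ z, G (fun e => z e + b e) = G z) :
    ∫ z, Real.exp (∑ e, b e * z e) * G z ∂(gI ι) =
      Real.exp ((∑ e, b e ^ 2) / 2) * ∫ z, G z ∂(gI ι) := by
  have h := Vale.Agent.P367.Gap.integral_shift (ι := ι) (-b) G
  have e1 : ∀ J : ι → ℝ, G (J - -b) = G J := by
    intro J
    rw [← hG J]
    congr 1
    funext e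
    simp
  simp only [e1] at h
  have e2 : ∀ J : ι → ℝ, Real.exp (-(∑ i, (-b) i * J i) - (∑ i, (-b) i ^ 2) / 2) * G J =
      Real.exp (-((∑ e, b e ^ 2) / 2)) * (Real.exp (∑ e, b e * J e) * G J) := by
    intro J
    rw [← mul_assoc, ← Real.exp_add]
    congr 2
    have e3 : ∑ i, (-b) i * J i = -∑ i, b i * J i := by
      rw [← Finset.sum_neg_distrib]
      exact Finset.sum_congr rfl fun i _ => by simp
    have e4 : ∑ i, (-b) i ^ 2 = ∑ i, b i ^ 2 :=
      Finset.sum_congr rfl fun i _ => by simp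
    rw [e3, e4]
    ring
  simp only [e2] at h
  rw [integral_const_mul] at h
  have h2 : ∫ z, G z ∂(gI ι) = Real.exp (-((∑ e, b e ^ 2) / 2)) *
      ∫ z, Real.exp (∑ e, b e * z e) * G z ∂(gI ι) := h
  rw [h2, ← mul_assoc, ← Real.exp_add, add_neg_cancel, Real.exp_zero, one_mul]

/-! ### Functions which do not depend on a set of coordinates -/

/-- `f` does not depend on the coordinates of `B` -/
def Ind (B : ι → Prop) (f : (ι → ℝ) → ℝ) : Prop := ∀ z w, (∀ e, ¬ B e → z e = w e) → f z = f w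

theorem Ind.J {B : ι → Prop} {f : (ι → ℝ) → ℝ} (hf : Ind B f) (lev : ι → ℕ) (l : ℕ) :
    Ind B (Lv.J lev l f) := by
  intro z w h
  unfold Lv.J
  refine integral_congr_ae (Filter.Eventually.of_forall fun u => ?_)
  refine hf _ _ fun e he => ?_
  unfold Lv.mix
  rw [h e he]

theorem Ind.comp {B : ι → Prop} {f : (ι → ℝ) → ℝ} (hf : Ind B f) (g : ℝ → ℝ) :
    Ind B fun z => g (f z) := fun z w h => by
  show g (f z) = g (f w)
  rw [hf z w h]

theorem ind_top {B : ι → Prop} (h : ∀ x, Ind B fun z => S.H z x) : Ind B S.top := by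
  intro z w hzw
  unfold top
  congr 1
  refine Finset.sum_congr rfl fun x _ => ?_
  have h1 : S.H z x = S.H w x := h x z w hzw
  rw [h1]

theorem ind_lg {B : ι → Prop} (h : ∀ x, Ind B fun z => S.H z x) {l : ℕ} (hl : l ≤ S.K) :
    Ind B (S.lg l) := by
  refine down_ind (K := S.K) (P := fun l => Ind B (S.lg l)) ?_ ?_ l hl
  · rw [lg_top]
    exact ind_top h
  · intro l hl ih
    rw [lg_step S hl]
    have h1 : Ind B (Lv.J S.lev l (fun z => Real.exp (S.m (l + 1) * S.lg (l + 1) z))) :=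
      (ih.comp fun y => Real.exp (S.m (l + 1) * y)).J S.lev l
    intro z w hzw
    unfold stp
    rw [h1 z w hzw]

theorem ind_dn {B : ι → Prop} (h : ∀ x, Ind B fun z => S.H z x) : Ind B (S.dn 0) := by
  intro z w hzw
  unfold dn
  congr 1
  refine Finset.sum_congr rfl fun i hi => ?_
  obtain ⟨_, hi2⟩ := Finset.mem_Ico.1 hi
  rw [ind_lg h (show i + 1 ≤ S.K by omega) z w hzw, ind_lg h (show i ≤ S.K by omega) z w hzw]

theorem ind_gb {B : ι → Prop} (h : ∀ x, Ind B fun z => S.H z x) (x : X) :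
    Ind B fun z => S.gb z x := by
  intro z w hzw
  show S.gb z x = S.gb w x
  have h1 : ∀ x, S.H z x = S.H w x := fun x => h x z w hzw
  unfold gb
  simp only [h1]

/-! ### The upper comparison -/

/-- The log-weights increase with `top`. -/
theorem lg_mono (hS : S.Reg) (hS' : (S.wH H').Reg) (h : ∀ z, S.top z ≤ (S.wH H').top z)
    {l : ℕ} (hl : l ≤ S.K) (z : ι → ℝ) : 0 ≤ S.pD H' l z := by
  have key : ∀ l ≤ S.K, ∀ z, 0 ≤ S.pD H' l z := by
    refine down_ind (P := fun l => ∀ z, 0 ≤ S.pD H' l z) ?_ ?_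
    · intro z
      unfold pD
      have h1 : (S.wH H').lg S.K = (S.wH H').top := lg_top (S.wH H')
      rw [lg_top S, h1]
      have := h z
      linarith
    · intro l hl ih z
      have hm : 0 < S.m (l + 1) := hS.m_pos (by omega) (by omega)
      have hW := hS.pW_eg hl
      have hD := hS.lip_pD hS' (l := l + 1) hl
      have h2 : Lv.J S.lev l (fun z => S.pW l z * Real.exp (S.m (l + 1) * S.pD H' (l + 1) z)) z =
          Real.exp (S.m (l + 1) * S.pD H' l z) := hS.J_pW_exp hS' hl z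
      have h3 : Real.exp 0 ≤ Real.exp (S.m (l + 1) * S.pD H' l z) := by
        rw [← h2, Real.exp_zero, ← hS.J_pW hl z]
        refine J_mono hW (hW.mul (hD.exp_eg _)) (fun y => ?_) z
        have h4 : 1 ≤ Real.exp (S.m (l + 1) * S.pD H' (l + 1) y) :=
          Real.one_le_exp (mul_nonneg hm.le (ih y))
        exact le_mul_of_one_le_right (S.pW_pos l y).le h4
      rw [Real.exp_le_exp] at h3
      exact nonneg_of_mul_nonneg_right h3 hm
  exact key l hl z

/-- The logarithm of the density. -/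
noncomputable def UU (S : Sy ι X) (H' : (ι → ℝ) → X → ℝ) (z : ι → ℝ) (x : X) : ℝ :=
  (H' z x - S.H z x) + ((∑ i ∈ Finset.Ico 0 S.K, S.m (i + 1) *
      (S.pD H' (i + 1) z - S.pD H' i z)) - S.pD H' S.K z)

theorem dn_gb_eq (z : ι → ℝ) (x : X) :
    (S.wH H').dn 0 z * (S.wH H').gb z x = Real.exp (UU S H' z x) * (S.dn 0 z * S.gb z x) := by
  rw [gb_eq, gb_eq]
  unfold dn UU
  rw [← Real.exp_add, ← Real.exp_add, ← Real.exp_add]
  congr 1
  have h5 : (∑ i ∈ Finset.Ico 0 S.K, S.m (i + 1) *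
      (S.pD H' (i + 1) z - S.pD H' i z)) =
      (∑ i ∈ Finset.Ico 0 S.K, S.m (i + 1) * ((S.wH H').lg (i + 1) z - (S.wH H').lg i z)) -
      ∑ i ∈ Finset.Ico 0 S.K, S.m (i + 1) * (S.lg (i + 1) z - S.lg i z) := by
    rw [← Finset.sum_sub_distrib]
    refine Finset.sum_congr rfl fun i _ => ?_
    unfold pD
    ring
  have h6 : S.pD H' S.K z = (S.wH H').top z - S.top z := by
    unfold pD
    rw [lg_top S]
    have h7 : (S.wH H').lg S.K = (S.wH H').top := lg_top (S.wH H')
    rw [h7]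
  have h8 : (∑ i ∈ Finset.Ico 0 (S.wH H').K, (S.wH H').m (i + 1) *
      ((S.wH H').lg (i + 1) z - (S.wH H').lg i z)) =
      ∑ i ∈ Finset.Ico 0 S.K, S.m (i + 1) * ((S.wH H').lg (i + 1) z - (S.wH H').lg i z) := rfl
  have h9 : (S.wH H').H z x = H' z x := rfl
  rw [h5, h6, h8, h9]
  ring

/-- Abel summation: a bound from below of the differences. -/
theorem abel_le (hS : S.Reg) {f : ℕ → ℝ} {c : ℝ} (hf : ∀ i ≤ S.K, f i ≤ c) :
    -c ≤ (∑ i ∈ Finset.Ico 0 S.K, S.m (i + 1) * (f (i + 1) - f i)) - f S.K := by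
  have key : ∀ l ≤ S.K, -(S.m (l + 1) * f l) - (1 - S.m (l + 1)) * c ≤
      (∑ i ∈ Finset.Ico l S.K, S.m (i + 1) * (f (i + 1) - f i)) - f S.K := by
    refine down_ind ?_ ?_
    · rw [Finset.Ico_self, Finset.sum_empty, hS.mK]
      linarith
    · intro l hl ih
      rw [Finset.sum_eq_sum_Ico_succ_bot hl]
      have h1 := hS.mono (l + 1) hl
      have h2 := hf (l + 1) hl
      linarith only [mul_le_mul_of_nonneg_left h2 (sub_nonneg.2 h1), ih]
  have h1 := key 0 (Nat.zero_le _)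
  have hm0 : 0 < S.m (0 + 1) := hS.m_pos (by omega) (by omega)
  have h2 := hf 0 (Nat.zero_le _)
  linarith only [mul_le_mul_of_nonneg_left h2 hm0.le, h1]

/-- Abel summation: a bound from above of the differences. -/
theorem abel_ge (hS : S.Reg) {f : ℕ → ℝ} {c : ℝ} (hf : ∀ i ≤ S.K, c ≤ f i) :
    (∑ i ∈ Finset.Ico 0 S.K, S.m (i + 1) * (f (i + 1) - f i)) - f S.K ≤ -c := by
  have h := abel_le hS (f := fun i => -f i) (c := -c) (fun i hi => neg_le_neg (hf i hi))
  have e : ∀ i, S.m (i + 1) * ((fun i => -f i) (i + 1) - (fun i => -f i) i) =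
      -(S.m (i + 1) * (f (i + 1) - f i)) := fun i => by
    show S.m (i + 1) * (-f (i + 1) - -f i) = _
    ring
  simp only [e] at h
  rw [Finset.sum_neg_distrib] at h
  linarith

theorem nh_Ex_int (hS : S.Reg) {φ : (ι → ℝ) → X → ℝ} (hφ : Nh φ) (x : X) :
    EG fun z => S.dn 0 z * S.gb z x * φ z x :=
  ((hS.eg_dn (Nat.zero_le _)).mul (hS.eg_gb x)).mul (hφ x)

theorem Ex_eq_sum (hS : S.Reg) {φ : (ι → ℝ) → X → ℝ} (hφ : Nh φ) :
    S.Ex φ = ∑ x, ∫ z, S.dn 0 z * S.gb z x * φ z x ∂(gI ι) := by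
  unfold Ex
  rw [← integral_finsetSum _ fun x _ => (nh_Ex_int hS hφ x).integrable]
  refine integral_congr_ae (Filter.Eventually.of_forall fun z => ?_)
  show S.dn 0 z * S.av φ z = ∑ x, S.dn 0 z * S.gb z x * φ z x
  unfold Sy.av
  rw [Finset.mul_sum]
  exact Finset.sum_congr rfl fun x _ => by ring

/-- **The upper comparison.** An independent field `b` which increases `top` increases the
averages at most by the factor `exp (v / 2)`, `v` the variance of `b`. -/
theorem Ex_le_of_top (hS : S.Reg) (hS' : (S.wH H').Reg)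
    (h : ∀ z, S.top z ≤ (S.wH H').top z) {φ : (ι → ℝ) → X → ℝ} (hφ : Nh φ)
    (h0 : ∀ z x, 0 ≤ φ z x) {B : ι → Prop} {b : X → ι → ℝ} {v : ℝ}
    (hb : ∀ z x, H' z x - S.H z x = ∑ e, b x e * z e) (hbB : ∀ x e, ¬ B e → b x e = 0)
    (hv : ∀ x, ∑ e, b x e ^ 2 ≤ v) (hHB : ∀ x, Ind B fun z => S.H z x)
    (hφB : ∀ x, Ind B fun z => φ z x) :
    (S.wH H').Ex φ ≤ Real.exp (v / 2) * S.Ex φ := by
  rw [Ex_eq_sum hS' hφ, Ex_eq_sum hS hφ, Finset.mul_sum]
  refine Finset.sum_le_sum fun x _ => ?_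
  have hG : ∀ z : ι → ℝ, (fun z => S.dn 0 z * S.gb z x * φ z x) (fun e => z e + b x e) =
      S.dn 0 z * S.gb z x * φ z x := by
    intro z
    have hz : ∀ e, ¬ B e → (fun e => z e + b x e) e = z e := fun e he => by
      show z e + b x e = z e
      rw [hbB x e he, add_zero]
    have e1 := ind_dn hHB _ _ hz
    have e2 : S.gb (fun e => z e + b x e) x = S.gb z x := ind_gb hHB x _ _ hz
    have e3 : φ (fun e => z e + b x e) x = φ z x := hφB x _ _ hz
    show S.dn 0 (fun e => z e + b x e) * S.gb (fun e => z e + b x e) x *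
      φ (fun e => z e + b x e) x = _
    rw [e1, e2, e3]
  have h1 := int_exp_lin (b x) (G := fun z => S.dn 0 z * S.gb z x * φ z x) hG
  have hnn : 0 ≤ ∫ z, S.dn 0 z * S.gb z x * φ z x ∂(gI ι) :=
    integral_nonneg fun z => mul_nonneg (mul_nonneg (S.dn_pos 0 z).le (S.gb_pos z x).le) (h0 z x)
  have h2 : Real.exp ((∑ e, b x e ^ 2) / 2) * ∫ z, S.dn 0 z * S.gb z x * φ z x ∂(gI ι) ≤
      Real.exp (v / 2) * ∫ z, S.dn 0 z * S.gb z x * φ z x ∂(gI ι) := by
    refine mul_le_mul_of_nonneg_right (Real.exp_le_exp.2 ?_) hnn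
    have := hv x
    linarith
  refine le_trans ?_ h2
  rw [← h1]
  have hlip : EG fun z : ι → ℝ => Real.exp (∑ e, b x e * z e) := by
    have : Lip fun z : ι → ℝ => ∑ e, b x e * z e :=
      Lip.sum _ fun e _ => (Lip.coord e).const_mul _
    exact lc_eg_exp this
  refine integral_mono (nh_Ex_int hS' hφ x).integrable
    (hlip.mul (nh_Ex_int hS hφ x)).integrable fun z => ?_
  show (S.wH H').dn 0 z * (S.wH H').gb z x * φ z x ≤
    Real.exp (∑ e, b x e * z e) * (S.dn 0 z * S.gb z x * φ z x)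
  rw [dn_gb_eq]
  have h3 : UU S H' z x ≤ ∑ e, b x e * z e := by
    unfold UU
    rw [hb]
    have := abel_ge hS (f := fun i => S.pD H' i z) (c := 0) fun i hi => lg_mono hS hS' h hi z
    rw [neg_zero] at this
    linarith
  have h4 : 0 ≤ S.dn 0 z * S.gb z x * φ z x :=
    mul_nonneg (mul_nonneg (S.dn_pos 0 z).le (S.gb_pos z x).le) (h0 z x)
  have h5 := mul_le_mul_of_nonneg_right (Real.exp_le_exp.2 h3) h4
  linarith

end gen

end Vale.Agent.P146.R3.H501.Tr
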