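import Mathlib
import Vale.Agent.P146.R3.H501.Tr1

/-!
# P146, R7 (A-iii): an independent field decreases the averages at most by `exp (-v / 2)`
-/

open MeasureTheory ProbabilityTheory Filter Topology

namespace Vale.Agent.P146.R3.H501.Tr

set_option linter.unusedSectionVars false
set_option linter.all false

open Vale.Agent.P157 Vale.Agent.P157.Lv Vale.Agent.P157.Lv.Sy

section gen

variable {ι X : Type} [Fintype ι] [Fintype X] [Nonempty X] {S : Sy ι X}
  {H' : (ι → ℝ) → X → ℝ}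

theorem eg_mix_right {h : (ι → ℝ) → ℝ} (hh : EG h) (lev : ι → ℕ) (l : ℕ) (z : ι → ℝ) :
    EG fun v => h (Lv.mix lev l z v) := by
  obtain ⟨C, a, hC, ha, hb⟩ := hh.bdd
  refine ⟨hh.meas.comp (measurable_mix_right lev l z), C * Real.exp (a * ‖z‖), a, by positivity,
    ha, fun v => ?_⟩
  refine (hb _).trans ?_
  rw [mul_assoc, ← Real.exp_add, ← mul_add]
  gcongr
  exact norm_mix_le z v

/-- Composition of two resamplings. -/
theorem J_J_gen {lev₁ lev₂ lev₃ : ι → ℕ} {l₁ l₂ l₃ : ℕ}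
    (h3 : ∀ e, lev₃ e ≤ l₃ ↔ (lev₁ e ≤ l₁ ∧ lev₂ e ≤ l₂)) {h : (ι → ℝ) → ℝ} (hh : EG h)
    (z : ι → ℝ) : Lv.J lev₁ l₁ (Lv.J lev₂ l₂ h) z = Lv.J lev₃ l₃ h z := by
  unfold Lv.J
  have e1 : ∀ w u : ι → ℝ, Lv.mix lev₂ l₂ (Lv.mix lev₁ l₁ z w) u =
      Lv.mix lev₃ l₃ z (Lv.mix lev₂ l₂ w u) := by
    intro w u
    funext e
    unfold Lv.mix
    by_cases h1 : lev₁ e ≤ l₁ <;> by_cases h2 : lev₂ e ≤ l₂
    · rw [if_pos h2, if_pos h1, if_pos ((h3 e).2 ⟨h1, h2⟩)]
    · rw [if_neg h2, if_neg (fun h => h2 ((h3 e).1 h).2), if_neg h2]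
    · rw [if_pos h2, if_neg h1, if_neg (fun h => h1 ((h3 e).1 h).1), if_pos h2]
    · rw [if_neg h2, if_neg (fun h => h2 ((h3 e).1 h).2), if_neg h2]
  simp only [e1]
  exact integral_mix (h := fun v => h (Lv.mix lev₃ l₃ z v)) (eg_mix_right hh lev₃ l₃ z) lev₂ l₂

open Classical in
/-- The levels which resample the coordinates of `B`. -/
noncomputable def lb (B : ι → Prop) : ι → ℕ := fun e => if B e then 1 else 0

theorem lb_le {B : ι → Prop} (e : ι) : lb B e ≤ 0 ↔ ¬ B e := by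
  unfold lb
  split_ifs with h
  · simp [h]
  · simp [h]

theorem mix_lb {B : ι → Prop} (z w : ι → ℝ) (e : ι) (he : ¬ B e) : Lv.mix (lb B) 0 z w e = z e := by
  unfold Lv.mix
  rw [if_pos ((lb_le e).2 he)]

theorem mix_lb' {B : ι → Prop} (z w : ι → ℝ) (e : ι) (he : B e) : Lv.mix (lb B) 0 z w e = w e := by
  unfold Lv.mix
  rw [if_neg (fun h => (lb_le e).1 h he)]

/-- The resamplings commute. -/
theorem J_comm (B : ι → Prop) (lev : ι → ℕ) (l : ℕ) {h : (ι → ℝ) → ℝ} (hh : EG h) (z : ι → ℝ) :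
    Lv.J (lb B) 0 (Lv.J lev l h) z = Lv.J lev l (Lv.J (lb B) 0 h) z := by
  have h1 : ∀ e, lb (fun e => B e ∨ l < lev e) e ≤ 0 ↔ (lb B e ≤ 0 ∧ lev e ≤ l) := by
    intro e
    rw [lb_le, lb_le]
    constructor
    · intro h
      exact ⟨fun h' => h (Or.inl h'), not_lt.1 fun h' => h (Or.inr h')⟩
    · rintro ⟨h1, h2⟩ (h | h)
      · exact h1 h
      · omega
  have h2 : ∀ e, lb (fun e => B e ∨ l < lev e) e ≤ 0 ↔ (lev e ≤ l ∧ lb B e ≤ 0) := fun e => by
    rw [h1 e, and_comm]
  rw [J_J_gen h1 hh z, J_J_gen h2 hh z]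

theorem J_pull {B : ι → Prop} {f : (ι → ℝ) → ℝ} (hf : Ind B f) (g : (ι → ℝ) → ℝ) (z : ι → ℝ) :
    Lv.J (lb B) 0 (fun z => f z * g z) z = f z * Lv.J (lb B) 0 g z := by
  unfold Lv.J
  rw [← integral_const_mul]
  refine integral_congr_ae (Filter.Eventually.of_forall fun w => ?_)
  show f _ * g _ = f z * g _
  rw [hf (Lv.mix (lb B) 0 z w) z fun e he => mix_lb z w e he]

theorem J_exp_lin {B : ι → Prop} {b : ι → ℝ} (hb : ∀ e, ¬ B e → b e = 0) (z : ι → ℝ) :
    Lv.J (lb B) 0 (fun z => Real.exp (∑ e, b e * z e)) z = Real.exp ((∑ e, b e ^ 2) / 2) := by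
  unfold Lv.J
  have e1 : ∀ w : ι → ℝ, ∑ e, b e * Lv.mix (lb B) 0 z w e = ∑ e, b e * w e := by
    intro w
    refine Finset.sum_congr rfl fun e _ => ?_
    by_cases he : B e
    · rw [mix_lb' z w e he]
    · rw [hb e he, zero_mul, zero_mul]
  simp only [e1]
  exact Vale.Agent.P367.Gap.integral_exp_linear b

theorem J_lin {B : ι → Prop} {b : ι → ℝ} (hb : ∀ e, ¬ B e → b e = 0) (z : ι → ℝ) :
    Lv.J (lb B) 0 (fun z => ∑ e, b e * z e) z = 0 := by
  unfold Lv.J
  have e1 : ∀ w : ι → ℝ, ∑ e, b e * Lv.mix (lb B) 0 z w e = ∑ e, b e * w e := by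
    intro w
    refine Finset.sum_congr rfl fun e _ => ?_
    by_cases he : B e
    · rw [mix_lb' z w e he]
    · rw [hb e he, zero_mul, zero_mul]
  simp only [e1]
  rw [integral_finsetSum _ fun e _ => ((EG.coord e).const_mul _).integrable]
  refine Finset.sum_eq_zero fun e _ => ?_
  rw [integral_const_mul]
  have : ∫ w : ι → ℝ, w e ∂(gI ι) = 0 := Vale.Agent.P146.Ub.Cv.int_coord_zero e
  rw [this, mul_zero]

/-- Jensen's inequality for the resampling. -/
theorem exp_J_le {lev : ι → ℕ} {l : ℕ} {f : (ι → ℝ) → ℝ} (hf : EG f)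
    (hf' : EG fun z => Real.exp (f z)) (z : ι → ℝ) :
    Real.exp (Lv.J lev l f z) ≤ Lv.J lev l (fun z => Real.exp (f z)) z := by
  obtain ⟨c, hc⟩ : ∃ c, c = Lv.J lev l f z := ⟨_, rfl⟩
  rw [← hc]
  have h1 : Lv.J lev l (fun z => Real.exp c * ((1 - c) + f z)) z ≤
      Lv.J lev l (fun z => Real.exp (f z)) z := by
    refine J_mono (((EG.const (1 - c)).add hf).const_mul _) hf' (fun y => ?_) z
    have h2 := Real.add_one_le_exp (f y - c)
    have h3 := mul_le_mul_of_nonneg_left h2 (Real.exp_pos c).le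
    rw [← Real.exp_add] at h3
    have e : c + (f y - c) = f y := by ring
    rw [e] at h3
    linarith
  rw [J_const_mul, J_add (EG.const _) hf, J_const, ← hc] at h1
  have e : Real.exp c * (1 - c + c) = Real.exp c := by ring
  rwa [e] at h1

variable {B : ι → Prop} {b : X → ι → ℝ} {v : ℝ}

theorem lip_lin (b : ι → ℝ) : Lip fun z : ι → ℝ => ∑ e, b e * z e :=
  Lip.sum _ fun e _ => (Lip.coord e).const_mul _

/-- The exponential moment of the differences. -/
theorem J_exp_pD (hS : S.Reg) (hS' : (S.wH H').Reg)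
    (hb : ∀ z x, H' z x - S.H z x = ∑ e, b x e * z e) (hbB : ∀ x e, ¬ B e → b x e = 0)
    (hv : ∀ x, ∑ e, b x e ^ 2 ≤ v) (hHB : ∀ x, Ind B fun z => S.H z x) {l : ℕ} (hl : l ≤ S.K)
    (z : ι → ℝ) : Lv.J (lb B) 0 (fun z => Real.exp (S.pD H' l z)) z ≤ Real.exp (v / 2) := by
  have key : ∀ l ≤ S.K, ∀ z, Lv.J (lb B) 0 (fun z => Real.exp (S.pD H' l z)) z ≤
      Real.exp (v / 2) := by
    refine down_ind (P := fun l => ∀ z, Lv.J (lb B) 0 (fun z => Real.exp (S.pD H' l z)) z ≤
      Real.exp (v / 2)) ?_ ?_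
    · intro z
      have e1 : (fun z => Real.exp (S.pD H' S.K z)) =
          fun z => ∑ x, S.gb z x * Real.exp (∑ e, b x e * z e) := by
        funext y
        unfold pD
        have h1 : (S.wH H').lg S.K = (S.wH H').top := lg_top (S.wH H')
        rw [lg_top S, h1, exp_top_sub]
        exact Finset.sum_congr rfl fun x _ => by rw [hb]
      have e2 : ∀ x, EG fun z => S.gb z x * Real.exp (∑ e, b x e * z e) := fun x =>
        (hS.eg_gb x).mul (lc_eg_exp (lip_lin (b x)))
      rw [e1, J_sum _ fun x _ => e2 x]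
      have e3 : ∀ x, Lv.J (lb B) 0 (fun z => S.gb z x * Real.exp (∑ e, b x e * z e)) z =
          S.gb z x * Real.exp ((∑ e, b x e ^ 2) / 2) := by
        intro x
        rw [J_pull (ind_gb hHB x), J_exp_lin (hbB x)]
      simp only [e3]
      calc ∑ x, S.gb z x * Real.exp ((∑ e, b x e ^ 2) / 2) ≤ ∑ x, S.gb z x * Real.exp (v / 2) := by
            refine Finset.sum_le_sum fun x _ => mul_le_mul_of_nonneg_left
              (Real.exp_le_exp.2 ?_) (S.gb_pos z x).le
            have := hv x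
            linarith
        _ = Real.exp (v / 2) := by rw [← Finset.sum_mul, S.sum_gb z, one_mul]
    · intro l hl ih z
      have hm : 0 < S.m (l + 1) := hS.m_pos (by omega) (by omega)
      have hm1 : S.m (l + 1) ≤ 1 := hS.m_le_one (by omega)
      have hW := hS.pW_eg hl
      have hD := hS.lip_pD hS' (l := l + 1) hl
      have hD0 := hS.lip_pD hS' (l := l) hl.le
      have hDe : EG fun z => Real.exp (S.pD H' (l + 1) z) := lc_eg_exp hD
      -- the power mean inequality
      have h1 : ∀ y, Real.exp (S.pD H' l y) ≤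
          Lv.J S.lev l (fun z => S.pW l z * Real.exp (S.pD H' (l + 1) z)) y := by
        intro y
        obtain ⟨c, hc⟩ : ∃ c, c = S.pD H' l y := ⟨_, rfl⟩
        obtain ⟨a, ha⟩ : ∃ a, a = S.m (l + 1) := ⟨_, rfl⟩
        have h2 : Lv.J S.lev l (fun z => S.pW l z * Real.exp (a * S.pD H' (l + 1) z)) y =
            Real.exp (a * c) := by
          rw [ha, hc]
          exact hS.J_pW_exp hS' hl y
        rw [← ha] at hm hm1
        rw [← hc]
        have h3 : Lv.J S.lev l (fun z => S.pW l z * Real.exp (a * S.pD H' (l + 1) z)) y ≤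
            Lv.J S.lev l (fun z => Real.exp (a * c) * ((1 - a) * S.pW l z +
              (a * Real.exp (-c)) * (S.pW l z * Real.exp (S.pD H' (l + 1) z)))) y := by
          refine J_mono (hW.mul (hD.exp_eg _))
            (((hW.const_mul _).add ((hW.mul hDe).const_mul _)).const_mul _) (fun z => ?_) y
          have h4 := exp_mul_le_tangent hm.le hm1 (S.pD H' (l + 1) z - c)
          have e1 : Real.exp (a * S.pD H' (l + 1) z) =
              Real.exp (a * c) * Real.exp (a * (S.pD H' (l + 1) z - c)) := by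
            rw [← Real.exp_add]
            congr 1
            ring
          have e2 : Real.exp (S.pD H' (l + 1) z - c) =
              Real.exp (-c) * Real.exp (S.pD H' (l + 1) z) := by
            rw [← Real.exp_add]
            congr 1
            ring
          rw [e2] at h4
          rw [e1]
          have h5 := mul_le_mul_of_nonneg_left h4
            (mul_pos (Real.exp_pos (a * c)) (S.pW_pos l z)).le
          linarith
        rw [h2, J_const_mul, J_add (hW.const_mul _) ((hW.mul hDe).const_mul _), J_const_mul,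
          J_const_mul, hS.J_pW hl y] at h3
        have h6 : 0 < Real.exp (a * c) := Real.exp_pos _
        have h7 : 1 ≤ (1 - a) * 1 + a * Real.exp (-c) *
            Lv.J S.lev l (fun z => S.pW l z * Real.exp (S.pD H' (l + 1) z)) y := by
          by_contra hcon
          push Not at hcon
          have := mul_lt_mul_of_pos_left hcon h6
          linarith
        have h8 : a * 1 ≤ a * (Real.exp (-c) *
            Lv.J S.lev l (fun z => S.pW l z * Real.exp (S.pD H' (l + 1) z)) y) := by linarith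
        have h9 := le_of_mul_le_mul_left h8 hm
        have h10 := mul_le_mul_of_nonneg_left h9 (Real.exp_pos c).le
        rw [← mul_assoc, ← Real.exp_add, add_neg_cancel, Real.exp_zero, one_mul, mul_one] at h10
        exact h10
      have hE : EG fun z => S.pW l z * Real.exp (S.pD H' (l + 1) z) := hW.mul hDe
      have h2 : Lv.J (lb B) 0 (fun z => Real.exp (S.pD H' l z)) z ≤
          Lv.J (lb B) 0 (Lv.J S.lev l (fun z => S.pW l z * Real.exp (S.pD H' (l + 1) z))) z :=
        J_mono (lc_eg_exp hD0) (hE.J _ _) h1 z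
      refine h2.trans ?_
      rw [J_comm B S.lev l hE z]
      have hWB : Ind B (S.pW l) := by
        intro z w hzw
        unfold pW
        rw [ind_lg hHB (show l + 1 ≤ S.K from hl) z w hzw, ind_lg hHB hl.le z w hzw]
      have e3 : Lv.J (lb B) 0 (fun z => S.pW l z * Real.exp (S.pD H' (l + 1) z)) =
          fun z => S.pW l z * Lv.J (lb B) 0 (fun z => Real.exp (S.pD H' (l + 1) z)) z := by
        funext y
        exact J_pull hWB _ y
      rw [e3]
      have h3 : Lv.J S.lev l (fun z => S.pW l z *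
          Lv.J (lb B) 0 (fun z => Real.exp (S.pD H' (l + 1) z)) z) z ≤
          Lv.J S.lev l (fun z => Real.exp (v / 2) * S.pW l z) z := by
        refine J_mono (hW.mul (hDe.J _ _)) (hW.const_mul _) (fun y => ?_) z
        rw [mul_comm (Real.exp (v / 2))]
        exact mul_le_mul_of_nonneg_left (ih y) (S.pW_pos l y).le
      rw [J_const_mul, hS.J_pW hl z, mul_one] at h3
      exact h3
  exact key l hl z

theorem lip_UU (hS : S.Reg) (hS' : (S.wH H').Reg) (x : X) : Lip fun z => UU S H' z x := by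
  have h1 := hS.lip_diff hS' x
  have h2 : Lip fun z => ∑ i ∈ Finset.Ico 0 S.K, S.m (i + 1) *
      (S.pD H' (i + 1) z - S.pD H' i z) := by
    refine Lip.sum _ fun i hi => ?_
    obtain ⟨_, hi2⟩ := Finset.mem_Ico.1 hi
    have h3 := ((hS.lip_pD hS' (l := i + 1) hi2).add
      ((hS.lip_pD hS' (l := i) hi2.le).const_mul (-1))).const_mul (S.m (i + 1))
    have e : (fun z => S.m (i + 1) * (S.pD H' (i + 1) z - S.pD H' i z)) =
        fun z => S.m (i + 1) * (S.pD H' (i + 1) z + -1 * S.pD H' i z) := by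
      funext z
      ring
    rw [e]
    exact h3
  have h3 := h1.add (h2.add ((hS.lip_pD hS' (l := S.K) le_rfl).const_mul (-1)))
  have e : (fun z => UU S H' z x) = fun z => (H' z x - S.H z x) +
      ((∑ i ∈ Finset.Ico 0 S.K, S.m (i + 1) * (S.pD H' (i + 1) z - S.pD H' i z)) +
        -1 * S.pD H' S.K z) := by
    funext z
    unfold UU
    ring
  rw [e]
  exact h3

theorem J_exp_UU (hS : S.Reg) (hS' : (S.wH H').Reg)
    (hb : ∀ z x, H' z x - S.H z x = ∑ e, b x e * z e) (hbB : ∀ x e, ¬ B e → b x e = 0)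
    (hv : ∀ x, ∑ e, b x e ^ 2 ≤ v) (hHB : ∀ x, Ind B fun z => S.H z x) (x : X)
    (z : ι → ℝ) : Real.exp (-(v / 2)) ≤ Lv.J (lb B) 0 (fun z => Real.exp (UU S H' z x)) z := by
  have hL := lip_UU hS hS' x
  refine le_trans (Real.exp_le_exp.2 ?_) (exp_J_le hL.eg (lc_eg_exp hL) z)
  have hD : ∀ i ≤ S.K, EG (S.pD H' i) := fun i hi => (hS.lip_pD hS' hi).eg
  have e1 : (fun z => UU S H' z x) = fun z => (∑ e, b x e * z e) +
      ((∑ i ∈ Finset.Ico 0 S.K, S.m (i + 1) * (S.pD H' (i + 1) z - S.pD H' i z)) -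
        S.pD H' S.K z) := by
    funext z
    unfold UU
    rw [hb]
  have g1 : EG fun z => ∑ i ∈ Finset.Ico 0 S.K, S.m (i + 1) *
      (S.pD H' (i + 1) z - S.pD H' i z) := by
    refine EG.sum _ fun i hi => ?_
    obtain ⟨_, hi2⟩ := Finset.mem_Ico.1 hi
    exact ((hD (i + 1) hi2).sub (hD i hi2.le)).const_mul _
  rw [e1, J_add (lip_lin (b x)).eg (g1.sub (hD S.K le_rfl)), J_lin (hbB x), zero_add,
    J_sub g1 (hD S.K le_rfl), J_sum _ fun i hi => by
      obtain ⟨_, hi2⟩ := Finset.mem_Ico.1 hi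
      exact ((hD (i + 1) hi2).sub (hD i hi2.le)).const_mul _]
  have e2 : ∑ i ∈ Finset.Ico 0 S.K, Lv.J (lb B) 0 (fun z => S.m (i + 1) *
      (S.pD H' (i + 1) z - S.pD H' i z)) z = ∑ i ∈ Finset.Ico 0 S.K, S.m (i + 1) *
      (Lv.J (lb B) 0 (S.pD H' (i + 1)) z - Lv.J (lb B) 0 (S.pD H' i) z) := by
    refine Finset.sum_congr rfl fun i hi => ?_
    obtain ⟨_, hi2⟩ := Finset.mem_Ico.1 hi
    rw [J_const_mul, J_sub (hD (i + 1) hi2) (hD i hi2.le)]
  rw [e2]
  refine abel_le hS (f := fun i => Lv.J (lb B) 0 (S.pD H' i) z) (c := v / 2) fun i hi => ?_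
  have h1 := exp_J_le (lev := lb B) (l := 0) (hD i hi) (lc_eg_exp (hS.lip_pD hS' hi)) z
  have h2 := h1.trans (J_exp_pD hS hS' hb hbB hv hHB hi z)
  exact Real.exp_le_exp.1 h2

/-- **The lower comparison.** An independent field `b` decreases the averages at most by the
factor `exp (-v / 2)`, `v` the variance of `b`. -/
theorem Ex_le_add (hS : S.Reg) (hS' : (S.wH H').Reg) {φ : (ι → ℝ) → X → ℝ} (hφ : Nh φ)
    (h0 : ∀ z x, 0 ≤ φ z x) (hb : ∀ z x, H' z x - S.H z x = ∑ e, b x e * z e)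
    (hbB : ∀ x e, ¬ B e → b x e = 0) (hv : ∀ x, ∑ e, b x e ^ 2 ≤ v)
    (hHB : ∀ x, Ind B fun z => S.H z x) (hφB : ∀ x, Ind B fun z => φ z x) :
    S.Ex φ ≤ Real.exp (v / 2) * (S.wH H').Ex φ := by
  rw [Ex_eq_sum hS' hφ, Ex_eq_sum hS hφ, Finset.mul_sum]
  refine Finset.sum_le_sum fun x _ => ?_
  have hG := nh_Ex_int hS hφ x
  have hGB : Ind B fun z => S.dn 0 z * S.gb z x * φ z x := by
    intro z w hzw
    have e1 := ind_dn hHB z w hzw
    have e2 : S.gb z x = S.gb w x := ind_gb hHB x z w hzw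
    have e3 : φ z x = φ w x := hφB x z w hzw
    show S.dn 0 z * S.gb z x * φ z x = S.dn 0 w * S.gb w x * φ w x
    rw [e1, e2, e3]
  have hGe : EG fun z => (S.dn 0 z * S.gb z x * φ z x) * Real.exp (UU S H' z x) :=
    hG.mul (lc_eg_exp (lip_UU hS hS' x))
  have e1 : ∫ z, (S.wH H').dn 0 z * (S.wH H').gb z x * φ z x ∂(gI ι) =
      ∫ z, (S.dn 0 z * S.gb z x * φ z x) *
        Lv.J (lb B) 0 (fun z => Real.exp (UU S H' z x)) z ∂(gI ι) := by
    have e2 : ∀ z, (S.wH H').dn 0 z * (S.wH H').gb z x * φ z x =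
        (S.dn 0 z * S.gb z x * φ z x) * Real.exp (UU S H' z x) := by
      intro z
      rw [dn_gb_eq]
      ring
    simp only [e2]
    rw [← integral_J (lev := lb B) (l := 0) hGe]
    refine integral_congr_ae (Filter.Eventually.of_forall fun z => ?_)
    exact J_pull hGB _ z
  rw [e1, ← integral_const_mul]
  refine integral_mono hG.integrable ((hG.mul ((lc_eg_exp (lip_UU hS hS' x)).J _ _)).const_mul
    _).integrable fun z => ?_
  show S.dn 0 z * S.gb z x * φ z x ≤ Real.exp (v / 2) * ((S.dn 0 z * S.gb z x * φ z x) *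
        Lv.J (lb B) 0 (fun z => Real.exp (UU S H' z x)) z)
  have h1 := J_exp_UU hS hS' hb hbB hv hHB x z
  have h2 : 0 ≤ S.dn 0 z * S.gb z x * φ z x :=
    mul_nonneg (mul_nonneg (S.dn_pos 0 z).le (S.gb_pos z x).le) (h0 z x)
  have h3 := mul_le_mul_of_nonneg_left h1 (mul_nonneg (Real.exp_pos (v / 2)).le h2)
  have e3 : Real.exp (v / 2) * (S.dn 0 z * S.gb z x * φ z x) * Real.exp (-(v / 2)) =
      S.dn 0 z * S.gb z x * φ z x := by
    have e4 : Real.exp (v / 2) * Real.exp (-(v / 2)) = 1 := by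
      rw [← Real.exp_add, add_neg_cancel, Real.exp_zero]
    calc _ = (Real.exp (v / 2) * Real.exp (-(v / 2))) * (S.dn 0 z * S.gb z x * φ z x) := by ring
      _ = _ := by rw [e4, one_mul]
  rw [e3] at h3
  linarith

end gen

end Vale.Agent.P146.R3.H501.Tr
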