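import Mathlib
import Vale.Agent.P146.R3.H501.Tr2

/-!
# P146, R7 (A-iii): rotations of the Gaussian coordinates
-/

open MeasureTheory ProbabilityTheory Filter Topology

namespace Vale.Agent.P146.R3.H501.Tr

set_option linter.unusedSectionVars false
set_option linter.all false

open Vale.Agent.P157 Vale.Agent.P157.Lv Vale.Agent.P157.Lv.Sy
open Vale.Agent.P157.Par (Path Exponents incr)
open Vale.Agent.P146.Ub

section gen

variable {ι X : Type} [Fintype ι] [DecidableEq ι] [Fintype X] [DecidableEq X] [Nonempty X]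

/-- The rotation. -/
def rot (c s : ι → ℝ) (z : ι ⊕ ι → ℝ) : ι → ℝ :=
  fun e => c e * z (Sum.inl e) + s e * z (Sum.inr e)

theorem mp_rot {c s : ι → ℝ} (h : ∀ e, c e ^ 2 + s e ^ 2 = 1) :
    MeasurePreserving (rot c s) (gI (ι ⊕ ι)) (gI ι) := by
  have h0 := measurePreserving_sumPiEquivProdPi (ι := ι) (ι' := ι) (X := fun _ : ι ⊕ ι => ℝ)
    (fun _ => gaussianReal 0 1)
  have h1 := MeasureTheory.measurePreserving_arrowProdEquivProdArrow ℝ ℝ ι
    (fun _ => gaussianReal 0 1) (fun _ => gaussianReal 0 1)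
  have h2 : MeasurePreserving (fun q : ι → ℝ × ℝ => fun i => c i * (q i).1 + s i * (q i).2)
      (Measure.pi fun _ => (gaussianReal 0 1).prod (gaussianReal 0 1)) (gI ι) := by
    refine ⟨by fun_prop, ?_⟩
    have h3 := Measure.pi_map_pi (μ := fun _ : ι => (gaussianReal 0 1).prod (gaussianReal 0 1))
      (f := fun i (p : ℝ × ℝ) => c i * p.1 + s i * p.2)
      (by
        intro i
        exact (by fun_prop : Measurable fun p : ℝ × ℝ => c i * p.1 + s i * p.2).aemeasurable)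
    have h5 : ∀ i, ((gaussianReal 0 1).prod (gaussianReal 0 1)).map
        (fun p : ℝ × ℝ => c i * p.1 + s i * p.2) = gaussianReal 0 1 := fun i =>
      Vale.Agent.P146.Ub.Cv.map_mix_one (h i)
    simp only [h5] at h3
    exact h3
  exact (h2.comp h1.symm).comp h0

theorem rot_mix (c s : ι → ℝ) (lev : ι → ℕ) (l : ℕ) (z w : ι ⊕ ι → ℝ) :
    rot c s (Lv.mix (Sum.elim lev lev) l z w) = Lv.mix lev l (rot c s z) (rot c s w) := by
  funext e
  unfold rot Lv.mix
  by_cases h : lev e ≤ l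
  · simp only [Sum.elim_inl, Sum.elim_inr, h, if_true]
  · simp only [Sum.elim_inl, Sum.elim_inr, h, if_false]

theorem int_rot {c s : ι → ℝ} (h : ∀ e, c e ^ 2 + s e ^ 2 = 1) {f : (ι → ℝ) → ℝ}
    (hf : Measurable f) : ∫ z, f (rot c s z) ∂(gI (ι ⊕ ι)) = ∫ z, f z ∂(gI ι) := by
  have hmp := mp_rot h
  conv_rhs => rw [← hmp.map_eq]
  rw [integral_map hmp.measurable.aemeasurable hf.aestronglyMeasurable]

theorem J_rot {c s : ι → ℝ} (h : ∀ e, c e ^ 2 + s e ^ 2 = 1) (lev : ι → ℕ) (l : ℕ)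
    {f : (ι → ℝ) → ℝ} (hf : Measurable f) (z : ι ⊕ ι → ℝ) :
    Lv.J (Sum.elim lev lev) l (fun z => f (rot c s z)) z = Lv.J lev l f (rot c s z) := by
  unfold Lv.J
  simp only [rot_mix]
  exact int_rot h (f := fun u => f (Lv.mix lev l (rot c s z) u))
    (hf.comp (measurable_mix_right lev l _))

/-- The rotated system. -/
noncomputable def rS (S : Sy ι X) (c s : ι → ℝ) : Sy (ι ⊕ ι) X :=
  ⟨Sum.elim S.lev S.lev, S.K, S.m, fun z x => S.H (rot c s z) x⟩

theorem rS_lg {S : Sy ι X} (hS : S.Reg) {c s : ι → ℝ} (h : ∀ e, c e ^ 2 + s e ^ 2 = 1) {l : ℕ}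
    (hl : l ≤ S.K) (z : ι ⊕ ι → ℝ) : (rS S c s).lg l z = S.lg l (rot c s z) := by
  have key : ∀ l ≤ S.K, ∀ z, (rS S c s).lg l z = S.lg l (rot c s z) := by
    refine down_ind (P := fun l => ∀ z, (rS S c s).lg l z = S.lg l (rot c s z)) ?_ ?_
    · intro z
      have h1 : (rS S c s).lg S.K = (rS S c s).top := lg_top (rS S c s)
      rw [h1, lg_top S]
      rfl
    · intro l hl ih z
      rw [lg_step S hl, lg_step (rS S c s) (show l < (rS S c s).K from hl)]
      unfold stp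
      have e1 : (fun z => Real.exp ((rS S c s).m (l + 1) * (rS S c s).lg (l + 1) z)) =
          fun z => (fun u => Real.exp (S.m (l + 1) * S.lg (l + 1) u)) (rot c s z) := by
        funext y
        show Real.exp (S.m (l + 1) * (rS S c s).lg (l + 1) y) = _
        rw [ih y]
      rw [e1]
      have h2 := J_rot h S.lev l (f := fun u => Real.exp (S.m (l + 1) * S.lg (l + 1) u))
        (Real.measurable_exp.comp ((hS.lip_lg (l := l + 1) hl).measurable.const_mul _)) z
      have e2 : (rS S c s).lev = Sum.elim S.lev S.lev := rfl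
      rw [e2, h2]
      rfl
  exact key l hl z

theorem rS_Ex {S : Sy ι X} (hS : S.Reg) {c s : ι → ℝ} (h : ∀ e, c e ^ 2 + s e ^ 2 = 1)
    {φ : (ι → ℝ) → X → ℝ} (hφ : Nh φ) :
    (rS S c s).Ex (fun z x => φ (rot c s z) x) = S.Ex φ := by
  unfold Ex
  have h1 := int_rot h (f := fun z => S.dn 0 z * S.av φ z)
    ((hS.eg_dn (Nat.zero_le _)).mul (hS.eg_av hφ)).meas
  rw [← h1]
  refine integral_congr_ae (Filter.Eventually.of_forall fun z => ?_)
  show (rS S c s).dn 0 z * (rS S c s).av (fun z x => φ (rot c s z) x) z =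
    S.dn 0 (rot c s z) * S.av φ (rot c s z)
  have e1 : (rS S c s).dn 0 z = S.dn 0 (rot c s z) := by
    unfold dn
    congr 1
    refine Finset.sum_congr rfl fun i hi => ?_
    obtain ⟨_, hi2⟩ := Finset.mem_Ico.1 hi
    have hi3 : i < S.K := hi2
    rw [rS_lg hS h (show i + 1 ≤ S.K from hi3), rS_lg hS h hi3.le]
    rfl
  have e2 : (rS S c s).av (fun z x => φ (rot c s z) x) z = S.av φ (rot c s z) := rfl
  rw [e1, e2]

theorem rS_ls (lev : ι → ℕ) (K : ℕ) (m : ℕ → ℝ) (c₀ : ℝ) (a : X → ι → ℝ) (c s : ι → ℝ) :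
    rS (ls lev K m c₀ a) c s = ls (Sum.elim lev lev) K m c₀
      (fun x => Sum.elim (fun e => c e * a x e) (fun e => s e * a x e)) := by
  unfold rS ls
  congr 1
  funext z x
  show lin (a x) (rot c s z) + c₀ = lin _ z + c₀
  congr 1
  unfold lin rot
  rw [Fintype.sum_sum_type]
  simp only [Sum.elim_inl, Sum.elim_inr]
  rw [← Finset.sum_add_distrib]
  exact Finset.sum_congr rfl fun e _ => by ring

variable {lev : ι → ℕ} {K : ℕ} {m : ℕ → ℝ}

/-- **Decreasing coefficients.** The coefficients `a' = c a` instead of `a`. -/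
theorem ls_rot_le (hm : Exponents K m) (hl : ∀ e, lev e ≤ K) (c₀ : ℝ) (a : X → ι → ℝ)
    {c s : ι → ℝ} (hcs : ∀ e, c e ^ 2 + s e ^ 2 = 1) (hc : ∀ e, s e = 0 → c e = 1) {v : ℝ}
    (hv : ∀ x, ∑ e, (s e * a x e) ^ 2 ≤ v) {φ : (ι → ℝ) → X → ℝ} (hφ : Nh φ)
    (h0 : ∀ z x, 0 ≤ φ z x) (hφ' : ∀ z w x, (∀ e, s e = 0 → z e = w e) → φ z x = φ w x) :
    (ls lev K m c₀ (fun x e => c e * a x e)).Ex φ ≤ Real.exp (v / 2) * (ls lev K m c₀ a).Ex φ := by
  have hl2 : ∀ e, Sum.elim lev lev e ≤ K := by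
    rintro (e | e)
    · exact hl e
    · exact hl e
  have h10 : ∀ e : ι, (fun _ : ι => (1 : ℝ)) e ^ 2 + (fun _ : ι => (0 : ℝ)) e ^ 2 = 1 := by
    intro e
    norm_num
  have hR := (ls_regD hm hl c₀ a).toReg
  have hR' := (ls_regD hm hl c₀ (fun x e => c e * a x e)).toReg
  obtain ⟨a₁, ha₁⟩ : ∃ a₁ : X → ι ⊕ ι → ℝ, a₁ = fun x =>
    Sum.elim (fun e => c e * a x e) (fun _ => 0) := ⟨_, rfl⟩
  obtain ⟨a₂, ha₂⟩ : ∃ a₂ : X → ι ⊕ ι → ℝ, a₂ = fun x =>
    Sum.elim (fun e => c e * a x e) (fun e => s e * a x e) := ⟨_, rfl⟩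
  have e1 : rS (ls lev K m c₀ (fun x e => c e * a x e)) (fun _ => 1) (fun _ => 0) =
      ls (Sum.elim lev lev) K m c₀ a₁ := by
    rw [rS_ls, ha₁]
    congr 1
    funext x
    congr 1
    · funext e
      rw [one_mul]
    · funext e
      rw [zero_mul]
  have e2 : rS (ls lev K m c₀ a) c s = ls (Sum.elim lev lev) K m c₀ a₂ := by
    rw [rS_ls, ha₂]
  have hR₁ := (ls_regD hm hl2 c₀ a₁).toReg
  have hR₂ := (ls_regD hm hl2 c₀ a₂).toReg
  have e3 : (ls (Sum.elim lev lev) K m c₀ a₁).wH (fun z x => lin (a₂ x) z + c₀) =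
      ls (Sum.elim lev lev) K m c₀ a₂ := rfl
  obtain ⟨ψ, hψ⟩ : ∃ ψ : (ι ⊕ ι → ℝ) → X → ℝ, ψ = fun z x =>
    φ (rot (fun _ => 1) (fun _ => 0) z) x := ⟨_, rfl⟩
  have hrot : ∀ z : ι ⊕ ι → ℝ, rot (fun _ => 1) (fun _ => 0) z = fun e => z (Sum.inl e) := by
    intro z
    funext e
    unfold rot
    ring
  have hψN : Nh ψ := by
    intro x
    obtain ⟨C, A, hC, hA, hbd⟩ := (hφ x).bdd
    refine ⟨?_, C, A, hC, hA, fun z => ?_⟩
    · rw [hψ]
      have : Measurable fun z : ι ⊕ ι → ℝ => rot (fun _ => (1 : ℝ)) (fun _ => 0) z := by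
        unfold rot
        fun_prop
      exact (hφ x).meas.comp this
    · rw [hψ]
      refine (hbd _).trans ?_
      refine mul_le_mul_of_nonneg_left (Real.exp_le_exp.2 (mul_le_mul_of_nonneg_left ?_ hA)) hC
      rw [hrot]
      refine (pi_norm_le_iff_of_nonneg (norm_nonneg _)).2 fun e => ?_
      exact norm_le_pi_norm z (Sum.inl e)
  have key := Ex_le_add (S := ls (Sum.elim lev lev) K m c₀ a₁)
    (H' := fun z x => lin (a₂ x) z + c₀) (B := fun e => e.isRight = true)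
    (b := fun x => Sum.elim (fun _ => 0) (fun e => s e * a x e)) (v := v) hR₁
    (by rw [e3]; exact hR₂) hψN (fun z x => by rw [hψ]; exact h0 _ _)
    (fun z x => by
      show lin (a₂ x) z + c₀ - (lin (a₁ x) z + c₀) = _
      rw [ha₁, ha₂]
      unfold lin
      rw [Fintype.sum_sum_type, Fintype.sum_sum_type, Fintype.sum_sum_type]
      simp only [Sum.elim_inl, Sum.elim_inr, zero_mul, Finset.sum_const_zero]
      ring)
    (fun x e he => by
      rcases e with e | e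
      · rfl
      · exact absurd rfl he)
    (fun x => by
      rw [Fintype.sum_sum_type]
      simp only [Sum.elim_inl, Sum.elim_inr]
      have := hv x
      simpa using this)
    (fun x z w hzw => by
      show lin (a₁ x) z + c₀ = lin (a₁ x) w + c₀
      congr 1
      rw [ha₁]
      unfold lin
      rw [Fintype.sum_sum_type, Fintype.sum_sum_type]
      simp only [Sum.elim_inl, Sum.elim_inr, zero_mul, Finset.sum_const_zero, add_zero]
      exact Finset.sum_congr rfl fun e _ => by rw [hzw (Sum.inl e) (by simp)])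
    (fun x z w hzw => by
      show ψ z x = ψ w x
      rw [hψ]
      show φ (rot (fun _ => 1) (fun _ => 0) z) x = φ (rot (fun _ => 1) (fun _ => 0) w) x
      rw [hrot, hrot]
      congr 1
      funext e
      exact hzw (Sum.inl e) (by simp))
  rw [e3] at key
  have e4 : (ls (Sum.elim lev lev) K m c₀ a₁).Ex ψ =
      (ls lev K m c₀ (fun x e => c e * a x e)).Ex φ := by
    rw [← e1, hψ]
    exact rS_Ex hR' h10 hφ
  have e5 : (ls (Sum.elim lev lev) K m c₀ a₂).Ex ψ = (ls lev K m c₀ a).Ex φ := by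
    rw [← e2, ← rS_Ex hR hcs hφ]
    congr 1
    funext z x
    rw [hψ]
    refine hφ' _ _ x fun e he => ?_
    unfold rot
    rw [he, hc e he]
  rw [e4, e5] at key
  exact key

end gen

end Vale.Agent.P146.R3.H501.Tr
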