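import Mathlib
import Vale.Agent.P146.R3.H501.Tr3

/-!
# P146, R7 (A-iii): the averages of the interpolating systems `ST` are bounded by those of `SN`
-/

open MeasureTheory ProbabilityTheory Filter Topology

namespace Vale.Agent.P146.Ub.Ld.H501

set_option linter.unusedSectionVars false
set_option linter.all false

open Vale.Agent.P157 Vale.Agent.P157.Lv Vale.Agent.P157.Lv.Sy Vale.Agent.P157.Lv.Fld
open Vale.Agent.P157.Par (Path Exponents incr spinPart)
open Vale.Agent.P146 (Pair)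
open Vale.Agent.P146.R3.H501.Tr

variable {n K N d : ℕ} {m s R : ℕ → ℝ} {β θ : ℝ}

/-- the cosine of the rotation of the disorder -/
noncomputable def cc (N : ℕ) : RI n K → ℝ
  | Sum.inl _ => √((N : ℝ) / ((N + 1 : ℕ) : ℝ))
  | Sum.inr _ => 1

/-- the sine of the rotation of the disorder -/
noncomputable def ss (N : ℕ) : RI n K → ℝ
  | Sum.inl _ => √(1 / ((N + 1 : ℕ) : ℝ))
  | Sum.inr _ => 0

/-- The decrease of the temperature costs at most the factor `exp (β² / 4)`. -/
theorem SC_le_SN (hd : d ≤ K) (hN : N ≤ n) (h0 : 0 < N) (hm : Exponents K m)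
    {φ : (RI n K → ℝ) → (Fin n → Bool) → ℝ} (hφ : Nh φ) (h1 : ∀ z x, 0 ≤ φ z x)
    (h2 : ∀ z w x, (∀ p, z (Sum.inr (Sum.inl p)) = w (Sum.inr (Sum.inl p))) → φ z x = φ w x) :
    (SC n K d m β N s).Ex φ ≤ Real.exp (β ^ 2 / 4) * (SN n K d m β N s).Ex φ := by
  have hN0 : (0 : ℝ) < N := by exact_mod_cast h0
  have hN1 : (0 : ℝ) < ((N + 1 : ℕ) : ℝ) := by positivity
  have hcs : ∀ e : RI n K, cc N e ^ 2 + ss N e ^ 2 = 1 := by
    rintro (p | p)
    · show √((N : ℝ) / ((N + 1 : ℕ) : ℝ)) ^ 2 + √(1 / ((N + 1 : ℕ) : ℝ)) ^ 2 = 1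
      rw [Real.sq_sqrt (by positivity), Real.sq_sqrt (by positivity)]
      push_cast
      field_simp
    · show (1 : ℝ) ^ 2 + 0 ^ 2 = 1
      norm_num
  have hc : ∀ e : RI n K, ss N e = 0 → cc N e = 1 := by
    rintro (p | p) h
    · exfalso
      have h3 : 0 < √(1 / ((N + 1 : ℕ) : ℝ)) := Real.sqrt_pos.2 (by positivity)
      exact h3.ne' h
    · rfl
  have hv : ∀ x : Fin n → Bool, ∑ e : RI n K, (ss N e * st β N s x e) ^ 2 ≤ β ^ 2 / 2 := by
    intro x
    have e1 : ∀ e : RI n K, (ss N e * st β N s x e) ^ 2 =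
        1 / ((N + 1 : ℕ) : ℝ) * (dsk N (β / √N) x e * dsk N (β / √N) x e) := by
      rintro (p | p)
      · show (√(1 / ((N + 1 : ℕ) : ℝ)) * (dsk N (β / √N) x (Sum.inl p) +
          fd N s x (Sum.inl p))) ^ 2 = _
        rw [fd_a, add_zero, mul_pow, Real.sq_sqrt (by positivity)]
        ring
      · show ((0 : ℝ) * _) ^ 2 = _
        rw [dsk_b]
        ring
    rw [Finset.sum_congr rfl fun e _ => e1 e, ← Finset.mul_sum, sum_dsk hN]
    have e2 : β / √(N : ℝ) * (β / √(N : ℝ)) = β ^ 2 / N := by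
      rw [div_mul_div_comm, Real.mul_self_sqrt hN0.le]
      ring
    rw [e2]
    have e3 : 1 / ((N + 1 : ℕ) : ℝ) * (β ^ 2 / N * ((N : ℝ) ^ 2 - N) / 2) =
        β ^ 2 / 2 * ((N - 1) / (N + 1)) := by
      push_cast
      field_simp
    rw [e3]
    have h3 : ((N : ℝ) - 1) / (N + 1) ≤ 1 := by
      rw [div_le_one (by positivity)]
      linarith
    exact mul_le_of_le_one_right (by positivity) h3
  have key := ls_rot_le (X := Fin n → Bool) hm (rlv_le (n := n) hd) (lc n) (st β N s) hcs hc hv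
    hφ h1 (fun z w x h => h2 z w x fun p => h _ rfl)
  have e1 : (fun (x : Fin n → Bool) (e : RI n K) => cc N e * st β N s x e) = sc β N s := by
    funext x e
    rcases e with p | p
    · show √((N : ℝ) / ((N + 1 : ℕ) : ℝ)) * (dsk N (β / √N) x (Sum.inl p) +
          fd N s x (Sum.inl p)) = dsk N (β / √((N + 1 : ℕ) : ℝ)) x (Sum.inl p) +
          fd N s x (Sum.inl p)
      rw [fd_a, add_zero, add_zero, dsk_a, dsk_a]
      split_ifs
      · rw [Real.sqrt_div hN0.le]
        have h3 : 0 < √(N : ℝ) := Real.sqrt_pos.2 hN0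
        field_simp
      · rw [mul_zero]
    · show 1 * (dsk N (β / √N) x (Sum.inr p) + fd N s x (Sum.inr p)) =
        dsk N (β / √((N + 1 : ℕ) : ℝ)) x (Sum.inr p) + fd N s x (Sum.inr p)
      rw [dsk_b, dsk_b, one_mul]
  have e2 : β ^ 2 / 2 / 2 = β ^ 2 / 4 := by ring
  rw [e1, e2] at key
  exact key

/-- The coefficients of the cavity and the tree fields. -/
noncomputable def bb (β : ℝ) (N : ℕ) (R : ℕ → ℝ) (θ : ℝ) : (Fin n → Bool) → RI n K → ℝ :=
  fun x e => Real.sin θ * tre N β R x e + Real.cos θ * cav N (β / √((N + 1 : ℕ) : ℝ)) x e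

/-- The coordinates of the cavity and the tree fields. -/
def BB (N : ℕ) : RI n K → Prop
  | Sum.inl p => (p.1.2 : ℕ) = N
  | Sum.inr (Sum.inl _) => False
  | Sum.inr (Sum.inr _) => True

theorem bb_flip (hN : N < n) (x : Fin n → Bool) (e : RI n K) :
    bb β N R θ (rflip hN x) e = -bb β N R θ x e := by
  unfold bb
  rcases e with p | p | l
  · rw [tre_a, tre_a, cav_a, cav_a]
    split_ifs with h
    · have h3 : (p.1.1 : ℕ) < (p.1.2 : ℕ) := p.2
      have h4 : p.1.2 = (⟨N, hN⟩ : Fin n) := Fin.ext h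
      rw [spin_flip hN x (by omega), h4]
      have h5 := sp_flip hN x
      rw [sp_eq hN, sp_eq hN] at h5
      rw [h5]
      ring
    · ring
  · rw [tre_b, tre_b, cav_b, cav_b]
    ring
  · rw [tre_c, tre_c, cav_b, cav_b, sp_flip hN x]
    ring

theorem sum_bb (hN : N < n) (hR : Path K R) (hR1 : R K ≤ 1) (x : Fin n → Bool) :
    ∑ e : RI n K, bb β N R θ x e ^ 2 ≤ β ^ 2 := by
  have hb2 : 0 ≤ β ^ 2 := sq_nonneg β
  have h1 : ∀ e, bb (K := K) β N R θ x e ^ 2 = Real.sin θ ^ 2 * tre N β R x e ^ 2 +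
      Real.cos θ ^ 2 * cav N (β / √((N + 1 : ℕ) : ℝ)) x e ^ 2 := by
    intro e
    have h2 := dj_tre_cav (N := N) (R := R) β (β / √((N + 1 : ℕ) : ℝ)) e x x
    unfold bb
    linear_combination 2 * Real.sin θ * Real.cos θ * h2
  rw [Finset.sum_congr rfl fun e _ => h1 e, Finset.sum_add_distrib, ← Finset.mul_sum,
    ← Finset.mul_sum, sum_tre hN β hR, sum_cav hN]
  have h3 : (β / √((N + 1 : ℕ) : ℝ)) ^ 2 * N ≤ β ^ 2 := by
    rw [div_pow, Real.sq_sqrt (by positivity), div_mul_eq_mul_div, div_le_iff₀ (by positivity)]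
    push_cast
    nlinarith
  have h4 : β ^ 2 * R K ≤ β ^ 2 := mul_le_of_le_one_right hb2 hR1
  have h5 := Real.sin_sq_add_cos_sq θ
  calc Real.sin θ ^ 2 * (β ^ 2 * R K) + Real.cos θ ^ 2 * ((β / √((N + 1 : ℕ) : ℝ)) ^ 2 * N) ≤
        Real.sin θ ^ 2 * β ^ 2 + Real.cos θ ^ 2 * β ^ 2 :=
        add_le_add (mul_le_mul_of_nonneg_left h4 (sq_nonneg _))
          (mul_le_mul_of_nonneg_left h3 (sq_nonneg _))
    _ = β ^ 2 := by rw [← add_mul, h5, one_mul]

/-- The new spin increases `top`: `cosh ≥ 1`. -/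
theorem top_le (hN : N < n) (z : RI n K → ℝ) :
    (SC n K d m β N s).top z ≤ (ST n K d m β N s R θ).top z := by
  have hH : ∀ x, (ST n K d m β N s R θ).H z x =
      (SC n K d m β N s).H z x + lin (bb β N R θ x) z := by
    intro x
    show lin (tc β N s R θ x) z + lc n = lin (sc β N s x) z + lc n + lin (bb β N R θ x) z
    unfold lin
    rw [show (∑ e, tc β N s R θ x e * z e) = ∑ e, sc β N s x e * z e + ∑ e, bb β N R θ x e * z e by
      rw [← Finset.sum_add_distrib]
      refine Finset.sum_congr rfl fun e _ => ?_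
      show (sc β N s x e + (Real.sin θ * tre N β R x e +
        Real.cos θ * cav N (β / √((N + 1 : ℕ) : ℝ)) x e)) * z e = _
      unfold bb
      ring]
    ring
  have hflip : ∀ x, (SC n K d m β N s).H z (rflip hN x) = (SC n K d m β N s).H z x := by
    intro x
    show lin (sc β N s (rflip hN x)) z + lc n = lin (sc β N s x) z + lc n
    rw [sc_flip]
  have hlin : ∀ x, lin (bb β N R θ (rflip hN x)) z = -lin (bb β N R θ x) z := by
    intro x
    unfold lin
    rw [← Finset.sum_neg_distrib]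
    refine Finset.sum_congr rfl fun e _ => ?_
    rw [bb_flip]
    ring
  unfold top
  refine Real.log_le_log (sum_exp_pos (S := SC n K d m β N s) z) ?_
  have e1 : ∑ x, Real.exp ((ST n K d m β N s R θ).H z x) =
      ∑ x, Real.exp ((SC n K d m β N s).H z x) * Real.exp (lin (bb β N R θ x) z) :=
    Finset.sum_congr rfl fun x _ => by rw [hH, Real.exp_add]
  have e2 : ∑ x, Real.exp ((SC n K d m β N s).H z x) * Real.exp (lin (bb β N R θ x) z) =
      ∑ x, Real.exp ((SC n K d m β N s).H z x) * Real.exp (-lin (bb β N R θ x) z) := by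
    rw [← Equiv.sum_comp (rflip hN)]
    exact Finset.sum_congr rfl fun x _ => by rw [hflip, hlin]
  have e3 : 2 * ∑ x, Real.exp ((SC n K d m β N s).H z x) ≤
      ∑ x, Real.exp ((SC n K d m β N s).H z x) * Real.exp (lin (bb β N R θ x) z) +
      ∑ x, Real.exp ((SC n K d m β N s).H z x) * Real.exp (-lin (bb β N R θ x) z) := by
    rw [← Finset.sum_add_distrib, Finset.mul_sum]
    refine Finset.sum_le_sum fun x _ => ?_
    have h3 := Real.add_one_le_exp (lin (bb β N R θ x) z)
    have h4 := Real.add_one_le_exp (-lin (bb β N R θ x) z)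
    have h5 := mul_le_mul_of_nonneg_left (add_le_add h3 h4)
      (Real.exp_pos ((SC n K d m β N s).H z x)).le
    linarith
  rw [e1]
  linarith

/-- The cavity and the tree fields cost at most the factor `exp (β² / 2)`. -/
theorem ST_le_SC (hd : d ≤ K) (hN : N < n) (hm : Exponents K m) (hR : Path K R) (hR1 : R K ≤ 1)
    (θ : ℝ) {φ : (RI n K → ℝ) → (Fin n → Bool) → ℝ} (hφ : Nh φ) (h1 : ∀ z x, 0 ≤ φ z x)
    (h2 : ∀ z w x, (∀ p, z (Sum.inr (Sum.inl p)) = w (Sum.inr (Sum.inl p))) → φ z x = φ w x) :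
    (ST n K d m β N s R θ).Ex φ ≤ Real.exp (β ^ 2 / 2) * (SC n K d m β N s).Ex φ := by
  have hS : (SC n K d m β N s).Reg := rs_reg hd hm _ _
  have hS' : (ST n K d m β N s R θ).Reg := rs_reg hd hm _ _
  have e1 : (SC n K d m β N s).wH (fun z x => lin (tc β N s R θ x) z + lc n) =
      ST n K d m β N s R θ := rfl
  have key := Ex_le_of_top (S := SC n K d m β N s)
    (H' := fun z x => lin (tc β N s R θ x) z + lc n) hS (by rw [e1]; exact hS')
    (fun z => by rw [e1]; exact top_le hN z) hφ h1 (B := BB N) (b := bb β N R θ) (v := β ^ 2)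
    (fun z x => by
      show lin (tc β N s R θ x) z + lc n - (lin (sc β N s x) z + lc n) = _
      unfold lin
      rw [add_sub_add_right_eq_sub, ← Finset.sum_sub_distrib]
      refine Finset.sum_congr rfl fun e _ => ?_
      show (sc β N s x e + (Real.sin θ * tre N β R x e +
        Real.cos θ * cav N (β / √((N + 1 : ℕ) : ℝ)) x e)) * z e - sc β N s x e * z e = _
      unfold bb
      ring)
    (fun x e he => by
      unfold bb
      rcases e with p | p | l
      · rw [tre_a, cav_a, if_neg (show ¬ (p.1.2 : ℕ) = N from he)]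
        ring
      · rw [tre_b, cav_b]
        ring
      · exact absurd trivial he)
    (fun x => sum_bb hN hR hR1 x)
    (fun x z w hzw => by
      show lin (sc β N s x) z + lc n = lin (sc β N s x) w + lc n
      congr 1
      unfold lin
      refine Finset.sum_congr rfl fun e _ => ?_
      by_cases he : BB N e
      · have h3 : sc β N s x e = 0 := by
          rcases e with p | p | l
          · show dsk N _ x (Sum.inl p) + fd N s x (Sum.inl p) = 0
            have h4 : (p.1.2 : ℕ) = N := he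
            rw [dsk_a, fd_a, if_neg (by omega), add_zero]
          · exact absurd he id
          · show dsk N _ x (Sum.inr (Sum.inr l)) + fd N s x (Sum.inr (Sum.inr l)) = 0
            rw [dsk_b, fd_c, add_zero]
        rw [h3, zero_mul, zero_mul]
      · rw [hzw e he])
    (fun x z w hzw => h2 z w x fun p => hzw _ id)
  rw [e1] at key
  exact key

/-- **The transfer.** Every nonnegative function of the site fields and of the configuration. -/
theorem trf (hd : d ≤ K) (hN : N + 1 ≤ n) (h0 : 0 < N) (hm : Exponents K m) (hR : Path K R)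
    (hR1 : R K ≤ 1) (θ : ℝ) {φ : (RI n K → ℝ) → (Fin n → Bool) → ℝ} (hφ : Nh φ)
    (h1 : ∀ z x, 0 ≤ φ z x)
    (h2 : ∀ z w x, (∀ p, z (Sum.inr (Sum.inl p)) = w (Sum.inr (Sum.inl p))) → φ z x = φ w x) :
    (ST n K d m β N s R θ).Ex φ ≤ Real.exp (β ^ 2) * (SN n K d m β N s).Ex φ := by
  have hN' : N ≤ n := Nat.le_of_succ_le hN
  have a1 := ST_le_SC (β := β) (s := s) hd hN hm hR hR1 θ hφ h1 h2
  have a2 := SC_le_SN (β := β) (s := s) hd hN' h0 hm hφ h1 h2
  have hS : (SN n K d m β N s).Reg := rs_reg hd hm _ _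
  have hpos : 0 ≤ (SN n K d m β N s).Ex φ := by
    rw [← hS.Ex_const 0]
    exact hS.Ex_mono (fun _ => EG.const 0) hφ h1
  have a3 := mul_le_mul_of_nonneg_left a2 (Real.exp_pos (β ^ 2 / 2)).le
  rw [← mul_assoc, ← Real.exp_add] at a3
  have a4 : Real.exp (β ^ 2 / 2 + β ^ 2 / 4) ≤ Real.exp (β ^ 2) :=
    Real.exp_le_exp.2 (by nlinarith [sq_nonneg β])
  exact a1.trans (a3.trans (mul_le_mul_of_nonneg_right a4 hpos))

/-- The transfer for a function of the field `j`. -/
theorem trf_hz (hd : d ≤ K) (hN : N + 1 ≤ n) (h0 : 0 < N) (hm : Exponents K m) (hR : Path K R)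
    (hR1 : R K ≤ 1) (θ : ℝ) (j : ℕ) (c : ℝ) :
    (ST n K d m β N s R θ).Ex (fun z x => (hz (ph (Nat.le_of_succ_le hN))
      (zc (Nat.le_of_succ_le hN)) j z x - c) ^ 2) ≤
    Real.exp (β ^ 2) * (SN n K d m β N s).Ex (fun z x => (hz (ph (Nat.le_of_succ_le hN))
      (zc (Nat.le_of_succ_le hN)) j z x - c) ^ 2) := by
  refine trf hd hN h0 hm hR hR1 θ ?_ (fun z x => sq_nonneg _) ?_
  · refine Nh.pow (Nh.sub ?_ fun _ => EG.const c) 2
    exact Nh.const_mul _ (nh_gx (K := K) (Nat.le_of_succ_le hN) j)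
  · intro z w x h
    rw [hz_eq_gx, hz_eq_gx]
    unfold gx zc
    simp only [h]

end Vale.Agent.P146.Ub.Ld.H501
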