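import Vale.Agent.P146.R3.H501.Gib
import Vale.Agent.P166.H295.Defs

/-!
# P146: almost sure convergence of `n⁻¹ ⟨σ·U_k(W)σ⟩`
-/

namespace Vale.Agent.P146.R3.H501

open MeasureTheory Matrix Filter Topology Vale.Agent.P166 Vale.Agent.P146
open Vale.Agent.P146.R2.H432 (cheb WW)

section

variable {Ω : Type} [MeasurableSpace Ω] (Q : Measure Ω) [IsProbabilityMeasure Q]
  (J : (N : ℕ) → Ω → Matrix (Fin N) (Fin N) ℝ) (K : (N : ℕ) → Ω → Matrix (Fin N) (Fin N) ℝ)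
  (f : ℝ → ℝ)

/-- the limit of the pressures is convex -/
theorem convex_f
    (h : ∀ s : ℝ, ∀ᵐ ω ∂Q, Tendsto (fun N => pressure N 1 (J N ω + (2 * s) • K N ω)) atTop
      (𝓝 (f s))) : ConvexOn ℝ Set.univ f := by
  refine ⟨convex_univ, fun x _ y _ a b ha hb hab => ?_⟩
  obtain ⟨ω, h1, h2, h3⟩ := ((h x).and ((h y).and (h (a • x + b • y)))).exists
  exact convex_lim (F := fun N s => pressure N 1 (J N ω + (2 * s) • K N ω))
    (fun N => pr_convex _ _) ha hb hab h1 h2 h3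

/-- the derivatives at `0` converge -/
theorem deriv_f {c : ℝ} (hc : HasDerivAt f c 0)
    (h : ∀ s : ℝ, ∀ᵐ ω ∂Q, Tendsto (fun N => pressure N 1 (J N ω + (2 * s) • K N ω)) atTop
      (𝓝 (f s))) :
    ∀ᵐ ω ∂Q, Tendsto (fun N : ℕ => gA N (J N ω) (K N ω) / N) atTop (𝓝 c) := by
  have h1 : ∀ᵐ ω ∂Q, ∀ q : ℚ, Tendsto (fun N => pressure N 1 (J N ω + (2 * (q : ℝ)) • K N ω))
      atTop (𝓝 (f q)) := ae_all_iff.2 fun q => h q
  filter_upwards [h1] with ω hω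
  refine tendsto_deriv (F := fun N s => pressure N 1 (J N ω + (2 * s) • K N ω))
    (fun N s => ?_) hω hc
  have := pr_sub (J N ω) (K N ω) s
  simpa using this

end

section

variable {Ω : Type} [MeasurableSpace Ω] (Q : Measure Ω) [IsProbabilityMeasure Q]
  (J : (N : ℕ) → Ω → Matrix (Fin N) (Fin N) ℝ) (gg : (N : ℕ) → Ω → Pair N → ℝ)

/-- transfer to the matrix without diagonal -/
theorem as_Yk (b : ℝ) (k : ℕ) {c : ℝ}
    (hoff : ∀ N ω (i j : Fin N), i ≠ j → J N ω i j = WW (gg N ω) i j)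
    (hdiff : ∀ᵐ ω ∂Q, ∀ ε : ℝ, 0 < ε → ∀ᶠ N : ℕ in atTop, ∀ σ ∈ cb N,
      |qf (cheb k (J N ω) - cheb k (WW (gg N ω))) σ| ≤ ε * N)
    (h : ∀ᵐ ω ∂Q, Tendsto (fun N : ℕ => gA N (b • J N ω) (cheb k (J N ω)) / N) atTop (𝓝 c)) :
    ∀ᵐ ω ∂Q, Tendsto (fun N : ℕ => Yk N k b (gg N ω)) atTop (𝓝 c) := by
  filter_upwards [hdiff, h] with ω h1 h2
  have h3 : Tendsto (fun N : ℕ => Yk N k b (gg N ω) -
      gA N (b • J N ω) (cheb k (J N ω)) / N) atTop (𝓝 0) := by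
    rw [Metric.tendsto_atTop']
    intro ε hε
    have h4 := (h1 (ε / 2) (by positivity)).and (eventually_gt_atTop 0)
    rw [eventually_atTop] at h4
    obtain ⟨N0, h4⟩ := h4
    refine ⟨N0, fun N hN => ?_⟩
    obtain ⟨h5, h6⟩ := h4 N hN.le
    have hN0 : (0 : ℝ) < N := by exact_mod_cast h6
    have e1 : gA N (b • J N ω) (cheb k (J N ω)) = gA N (b • WW (gg N ω)) (cheb k (J N ω)) := by
      refine gA_mono_diag fun i j hij => ?_
      rw [Matrix.smul_apply, Matrix.smul_apply, hoff N ω i j hij]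
    have h7 := abs_gA_sub_le (J := b • WW (gg N ω)) h5
    rw [Real.dist_eq, sub_zero, Yk_eq, e1, ← sub_div, abs_div, abs_of_pos hN0,
      div_lt_iff₀ hN0, abs_sub_comm]
    refine lt_of_le_of_lt h7 ?_
    exact mul_lt_mul_of_pos_right (by linarith) hN0
  have h8 := h3.add h2
  simpa using h8

end

end Vale.Agent.P146.R3.H501
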