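import Vale.Agent.P146.R3.H501.Sub
import Vale.Agent.P146.R2.H432.Err

/-!
# P146: the Gibbs average of `σ·U_k(W)σ / n`
-/

namespace Vale.Agent.P146.R3.H501

open MeasureTheory Matrix Filter Topology Vale.Agent.P166 Vale.Agent.P146
open Vale.Agent.P146.R2.H432 (cheb WW)

/-- `n⁻¹ ⟨σ·U_k(W)σ⟩` -/
noncomputable def Yk (n k : ℕ) (b : ℝ) (g : Pair n → ℝ) : ℝ :=
  (n : ℝ)⁻¹ * ∑ v, ∑ j, cheb k (WW g) v j * avf n b (fun σ => sp σ v * sp σ j) g

section basic

variable {N : ℕ}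

lemma sp_mem (σ : Fin N → ℤˣ) : sp σ ∈ cb N := by
  refine Fintype.mem_piFinset.2 fun i => ?_
  unfold sp
  rcases Int.units_eq_one_or (σ i) with h | h <;> simp [h]

lemma sp_inj : Function.Injective (sp : (Fin N → ℤˣ) → Fin N → ℝ) := by
  intro σ τ h
  funext i
  have h1 := congrFun h i
  unfold sp at h1
  have h2 : ((σ i : ℤ)) = (τ i : ℤ) := by exact_mod_cast h1
  exact Units.ext h2

lemma sp_surj {x : Fin N → ℝ} (hx : x ∈ cb N) : ∃ σ : Fin N → ℤˣ, sp σ = x := by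
  classical
  refine ⟨fun i => if x i = 1 then 1 else -1, ?_⟩
  funext i
  have h := Fintype.mem_piFinset.1 hx i
  simp only [Finset.mem_insert, Finset.mem_singleton] at h
  show (((if x i = 1 then (1 : ℤˣ) else -1 : ℤˣ) : ℤ) : ℝ) = x i
  rcases h with h | h
  · rw [h, if_neg (by norm_num)]
    simp
  · rw [h, if_pos rfl]
    simp

/-- sums over the real configurations and over the configurations of units -/
lemma sum_cb (F : (Fin N → ℝ) → ℝ) : ∑ x ∈ cb N, F x = ∑ σ : Fin N → ℤˣ, F (sp σ) := by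
  classical
  have h : cb N = Finset.univ.image (sp : (Fin N → ℤˣ) → Fin N → ℝ) := by
    ext x
    simp only [Finset.mem_image, Finset.mem_univ, true_and]
    exact ⟨fun hx => sp_surj hx, fun ⟨σ, hσ⟩ => hσ ▸ sp_mem σ⟩
  rw [h, Finset.sum_image fun σ _ τ _ h => sp_inj h]

lemma gA_mono_diag {J J' K : Matrix (Fin N) (Fin N) ℝ} (h : ∀ i j, i ≠ j → J' i j = J i j) :
    gA N J' K = gA N J K := by
  obtain ⟨c, hc⟩ : ∃ c, c = ∑ i, (J' i i - J i i) := ⟨_, rfl⟩
  have h1 : ∀ σ ∈ cb N, qf J' σ = qf J σ + c := by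
    intro σ hσ
    rw [qf_eq, qf_eq, hc, ← Finset.sum_add_distrib]
    refine Finset.sum_congr rfl fun i _ => ?_
    have h2 : ∀ j, J' i j * (σ i * σ j) = J i j * (σ i * σ j) +
        if j = i then (J' i i - J i i) else 0 := by
      intro j
      split_ifs with h3
      · subst h3
        rw [cb_sq hσ]
        ring
      · rw [h i j (Ne.symm h3), add_zero]
    simp_rw [h2]
    rw [Finset.sum_add_distrib, Finset.sum_ite_eq' Finset.univ i, if_pos (Finset.mem_univ i)]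
  unfold gA
  have e1 : ∑ σ ∈ cb N, qf K σ * Real.exp (1 / 2 * qf J' σ) =
      Real.exp (1 / 2 * c) * ∑ σ ∈ cb N, qf K σ * Real.exp (1 / 2 * qf J σ) := by
    rw [Finset.mul_sum]
    refine Finset.sum_congr rfl fun σ hσ => ?_
    rw [h1 σ hσ, mul_add, Real.exp_add]
    ring
  have e2 : ∑ σ ∈ cb N, Real.exp (1 / 2 * qf J' σ) =
      Real.exp (1 / 2 * c) * ∑ σ ∈ cb N, Real.exp (1 / 2 * qf J σ) := by
    rw [Finset.mul_sum]
    refine Finset.sum_congr rfl fun σ hσ => ?_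
    rw [h1 σ hσ, mul_add, Real.exp_add]
    ring
  rw [e1, e2, mul_div_mul_left _ _ (Real.exp_pos _).ne']

lemma abs_gA_sub_le {J K K' : Matrix (Fin N) (Fin N) ℝ} {C : ℝ}
    (h : ∀ σ ∈ cb N, |qf (K - K') σ| ≤ C) : |gA N J K - gA N J K'| ≤ C := by
  have hZ := sum_exp_pos (cb_ne N) fun σ => 1 / 2 * qf J σ
  unfold gA
  rw [← sub_div, abs_div, abs_of_pos hZ, div_le_iff₀ hZ, ← Finset.sum_sub_distrib,
    Finset.mul_sum]
  refine (Finset.abs_sum_le_sum_abs _ _).trans (Finset.sum_le_sum fun σ hσ => ?_)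
  have e : qf K σ * Real.exp (1 / 2 * qf J σ) - qf K' σ * Real.exp (1 / 2 * qf J σ) =
      qf (K - K') σ * Real.exp (1 / 2 * qf J σ) := by
    unfold qf
    rw [Matrix.sub_mulVec, dotProduct_sub]
    ring
  rw [e, abs_mul, abs_of_pos (Real.exp_pos _)]
  exact mul_le_mul_of_nonneg_right (h σ hσ) (Real.exp_pos _).le

lemma abs_gA_le {J K : Matrix (Fin N) (Fin N) ℝ} {C : ℝ}
    (h : ∀ σ ∈ cb N, |qf K σ| ≤ C) : |gA N J K| ≤ C := by
  have h1 := abs_gA_sub_le (J := J) (K := K) (K' := 0) (C := C) (by simpa using h)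
  have h2 : gA N J 0 = 0 := by
    unfold gA qf
    simp
  rwa [h2, sub_zero] at h1

lemma half_qf (b : ℝ) (g : Pair N → ℝ) (σ : Fin N → ℤˣ) :
    1 / 2 * qf (b • WW g) (sp σ) = b * hamiltonian N g σ := by
  have h := Vale.Agent.P150.quad_eq g (sp σ)
  have h1 : qf (b • WW g) (sp σ) = b / Real.sqrt N *
      ∑ i, ∑ j, Vale.Agent.P150.gsym g i j * sp σ i * sp σ j := by
    rw [qf_eq, Finset.mul_sum]
    refine Finset.sum_congr rfl fun i _ => ?_
    rw [Finset.mul_sum]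
    refine Finset.sum_congr rfl fun j _ => ?_
    show b * (Vale.Agent.P150.gsym g i j / Real.sqrt N) * _ = _
    ring
  rw [h1, h]
  unfold hamiltonian
  rw [Finset.mul_sum, Finset.mul_sum, Finset.mul_sum, Finset.mul_sum]
  refine Finset.sum_congr rfl fun p _ => ?_
  unfold sp
  ring

/-- the Gibbs average of the SK model -/
lemma gA_eq (b : ℝ) (g : Pair N → ℝ) (K : Matrix (Fin N) (Fin N) ℝ) :
    gA N (b • WW g) K = ∑ v, ∑ j, K v j * avf N b (fun σ => sp σ v * sp σ j) g := by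
  have hw : ∀ σ : Fin N → ℤˣ, wt (ska N b) (fun _ => 0) g σ =
      Real.exp (1 / 2 * qf (b • WW g) (sp σ)) := by
    intro σ
    unfold wt
    rw [ska_sum, add_zero, half_qf]
  have hz : zz (ska N b) (fun _ => 0) g = ∑ x ∈ cb N, Real.exp (1 / 2 * qf (b • WW g) x) := by
    rw [sum_cb]
    unfold zz
    exact Finset.sum_congr rfl fun σ _ => hw σ
  unfold gA avf gav
  rw [hz]
  obtain ⟨Z, hZ⟩ : ∃ Z, Z = ∑ x ∈ cb N, Real.exp (1 / 2 * qf (b • WW g) x) := ⟨_, rfl⟩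
  rw [← hZ, sum_cb fun x => qf K x * Real.exp (1 / 2 * qf (b • WW g) x)]
  simp_rw [← hw, qf_eq]
  have e : ∀ v j, K v j * ((∑ σ, sp σ v * sp σ j * wt (ska N b) (fun _ => 0) g σ) / Z) =
      (∑ σ, K v j * (sp σ v * sp σ j) * wt (ska N b) (fun _ => 0) g σ) / Z := by
    intro v j
    rw [← mul_div_assoc, Finset.mul_sum]
    congr 1
    exact Finset.sum_congr rfl fun σ _ => by ring
  simp_rw [e]
  simp_rw [← Finset.sum_div]
  congr 1
  simp_rw [Finset.sum_mul]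
  rw [Finset.sum_comm]
  refine Finset.sum_congr rfl fun v _ => ?_
  rw [Finset.sum_comm]

lemma Yk_eq (k : ℕ) (b : ℝ) (g : Pair N → ℝ) :
    Yk N k b g = gA N (b • WW g) (cheb k (WW g)) / N := by
  rw [gA_eq, Yk, div_eq_inv_mul]

end basic

end Vale.Agent.P146.R3.H501
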