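import Vale.Agent.P146.R3.H501.Gib

/-!
# P146: from almost sure convergence to convergence in `L²`
-/

namespace Vale.Agent.P146.R3.H501

open MeasureTheory ProbabilityTheory Matrix Filter Topology Vale.Agent.P146
open Vale.Agent.P146.R2.H432 (cheb WW BadQ cheb_off badQ_le cheb_moment measurable_BadQ dom_cheb)

section bounds

variable {N : ℕ}

lemma cb_sum_sq {σ : Fin N → ℝ} (hσ : σ ∈ cb N) : ∑ i : Fin N, σ i ^ 2 = N := by
  have h : ∀ i, σ i ^ 2 = 1 := fun i => by rw [sq]; exact cb_sq hσ i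
  simp [h]

lemma abs_qf_le {A : Matrix (Fin N) (Fin N) ℝ} {C : ℝ} (hC : 0 ≤ C) {σ : Fin N → ℝ}
    (hσ : σ ∈ cb N) (h : ∑ i, (A.mulVec σ) i ^ 2 ≤ C ^ 2 * ∑ i, σ i ^ 2) :
    |qf A σ| ≤ N * C := by
  have h1 := Finset.sum_mul_sq_le_sq_mul_sq Finset.univ σ (A.mulVec σ)
  rw [cb_sum_sq hσ] at h h1
  have hN : (0 : ℝ) ≤ N := Nat.cast_nonneg N
  refine abs_le_of_sq_le_sq ?_ (by positivity)
  show (∑ i, σ i * (A.mulVec σ) i) ^ 2 ≤ _
  nlinarith [mul_le_mul_of_nonneg_left h hN]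

/-- off the bad event -/
lemma Yk_good (k : ℕ) (b : ℝ) {g : Pair N → ℝ} (hg : g ∉ BadQ N 2) :
    |Yk N k b g| ≤ (k + 1) * 2 ^ k := by
  have h : ∀ σ ∈ cb N, |qf (cheb k (WW g)) σ| ≤ N * ((k + 1) * 2 ^ k) := fun σ hσ =>
    abs_qf_le (by positivity) hσ (cheb_off (by norm_num) hg k σ)
  rw [Yk_eq, abs_div, abs_of_nonneg (Nat.cast_nonneg N : (0 : ℝ) ≤ N)]
  refine div_le_of_le_mul₀ (Nat.cast_nonneg N) (by positivity) ?_
  rw [mul_comm]
  exact abs_gA_le h

/-- the squared Frobenius norm of `U_k(W)` -/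
noncomputable def fr (k : ℕ) (g : Pair N → ℝ) : ℝ := ∑ i, ∑ j, cheb k (WW g) i j ^ 2

lemma fr_nonneg (k : ℕ) (g : Pair N → ℝ) : 0 ≤ fr k g :=
  Finset.sum_nonneg fun _ _ => Finset.sum_nonneg fun _ _ => sq_nonneg _

/-- everywhere -/
lemma Yk_sq_le (k : ℕ) (b : ℝ) (g : Pair N → ℝ) : Yk N k b g ^ 2 ≤ fr k g := by
  have h : ∀ σ ∈ cb N, |qf (cheb k (WW g)) σ| ≤ N * Real.sqrt (fr k g) := fun σ hσ => by
    refine abs_qf_le (Real.sqrt_nonneg _) hσ ?_
    rw [Real.sq_sqrt (fr_nonneg k g), fr, Finset.sum_mul]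
    refine Finset.sum_le_sum fun v _ => ?_
    exact Finset.sum_mul_sq_le_sq_mul_sq Finset.univ (fun j => cheb k (WW g) v j) σ
  have h1 : |Yk N k b g| ≤ Real.sqrt (fr k g) := by
    rw [Yk_eq, abs_div, abs_of_nonneg (Nat.cast_nonneg N : (0 : ℝ) ≤ N)]
    refine div_le_of_le_mul₀ (Nat.cast_nonneg N) (Real.sqrt_nonneg _) ?_
    rw [mul_comm]
    exact abs_gA_le h
  rw [← sq_abs]
  calc |Yk N k b g| ^ 2 ≤ Real.sqrt (fr k g) ^ 2 := pow_le_pow_left₀ (abs_nonneg _) h1 2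
    _ = fr k g := Real.sq_sqrt (fr_nonneg k g)

lemma Yk_dom (k : ℕ) (b : ℝ) : Dom (Yk N k b) := by
  unfold Yk
  exact Dom.const_mul _ (Dom.sum _ fun v _ => Dom.sum _ fun j _ =>
    (dom_cheb k v j).mul (gav_dom _ _ _))

lemma fr_dom (k : ℕ) : Dom (fr (N := N) k) :=
  Dom.sum _ fun i _ => Dom.sum _ fun j _ => (dom_cheb k i j).pow 2

end bounds

section limits

lemma lim_poly (C : ℝ) (m : ℕ) :
    Tendsto (fun n : ℕ => C * (n : ℝ) ^ m * Real.exp (-((n : ℝ) / 1024))) atTop (𝓝 0) := by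
  have h1 := Real.tendsto_pow_mul_exp_neg_atTop_nhds_zero m
  have h2 : Tendsto (fun n : ℕ => (n : ℝ) / 1024) atTop atTop :=
    tendsto_natCast_atTop_atTop.atTop_div_const (by norm_num)
  have h3 := (h1.comp h2).const_mul (C * 1024 ^ m)
  rw [mul_zero] at h3
  refine h3.congr fun n => ?_
  simp only [Function.comp]
  rw [div_pow]
  field_simp

/-- the moment bound as a monomial -/
lemma mom_le {n : ℕ} (hn : 1 ≤ n) (k : ℕ) :
    (n : ℝ) ^ 2 * 16 ^ k * (1 + (4 * k * n : ℝ) ^ (2 * k)) ≤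
      16 ^ k * (1 + (4 * k : ℝ) ^ (2 * k)) * (n : ℝ) ^ (2 * k + 2) := by
  have h1 : (1 : ℝ) ≤ n := by exact_mod_cast hn
  have h2 : (1 : ℝ) ≤ (n : ℝ) ^ (2 * k) := one_le_pow₀ h1
  have h3 : (1 : ℝ) + (4 * k * n : ℝ) ^ (2 * k) ≤ (1 + (4 * k : ℝ) ^ (2 * k)) * (n : ℝ) ^ (2 * k) := by
    rw [mul_pow]
    linarith
  calc (n : ℝ) ^ 2 * 16 ^ k * (1 + (4 * k * n : ℝ) ^ (2 * k))
      ≤ (n : ℝ) ^ 2 * 16 ^ k * ((1 + (4 * k : ℝ) ^ (2 * k)) * (n : ℝ) ^ (2 * k)) :=
        mul_le_mul_of_nonneg_left h3 (by positivity)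
    _ = _ := by rw [pow_add]; ring

end limits

/-- **From almost sure convergence to `L²`.** -/
theorem l2_Yk {Ω : Type} [MeasurableSpace Ω] (Q : Measure Ω) [IsProbabilityMeasure Q]
    (gg : (N : ℕ) → Ω → Pair N → ℝ) (hgm : ∀ N, Measurable (gg N))
    (hgg : ∀ N, Q.map (gg N) = disorder N) (b : ℝ) (k : ℕ) {c : ℝ}
    (h : ∀ᵐ ω ∂Q, Tendsto (fun N : ℕ => Yk N k b (gg N ω)) atTop (𝓝 c)) :
    Tendsto (fun n : ℕ => ∫ g, (Yk n k b g - c) ^ 2 ∂(disorder n)) atTop (𝓝 0) := by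
  classical
  obtain ⟨D, hD⟩ : ∃ D : ℝ, D = ((k + 1) * 2 ^ k + |c|) ^ 2 := ⟨_, rfl⟩
  obtain ⟨A, hA⟩ : ∃ A : ℝ, A = 16 ^ k * (1 + (4 * k : ℝ) ^ (2 * k)) := ⟨_, rfl⟩
  have hA1 : 1 ≤ A := by
    have h1 : (1 : ℝ) ≤ 16 ^ k := one_le_pow₀ (by norm_num)
    have h2 : (0 : ℝ) ≤ (4 * k : ℝ) ^ (2 * k) := by positivity
    rw [hA]
    nlinarith
  -- the good part
  let hN : (n : ℕ) → (Pair n → ℝ) → ℝ := fun n =>
    (BadQ n 2)ᶜ.indicator fun g => (Yk n k b g - c) ^ 2
  have hm : ∀ n, Measurable (hN n) := fun n =>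
    Measurable.indicator (((Yk_dom k b).cont.sub continuous_const).pow 2).measurable
      (measurable_BadQ n 2).compl
  have hb : ∀ n g, |hN n g| ≤ D := by
    intro n g
    by_cases hg : g ∈ BadQ n 2
    · have : hN n g = 0 := Set.indicator_of_notMem (by simpa using hg) _
      rw [this, abs_zero, hD]
      positivity
    · have : hN n g = (Yk n k b g - c) ^ 2 := Set.indicator_of_mem (by simpa using hg) _
      rw [this, abs_of_nonneg (sq_nonneg _), hD, ← sq_abs]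
      refine pow_le_pow_left₀ (abs_nonneg _) ((abs_sub _ _).trans ?_) 2
      linarith [Yk_good k b hg]
  have hle : ∀ n g, 0 ≤ hN n g ∧ hN n g ≤ (Yk n k b g - c) ^ 2 := by
    intro n g
    by_cases hg : g ∈ BadQ n 2
    · have : hN n g = 0 := Set.indicator_of_notMem (by simpa using hg) _
      rw [this]
      exact ⟨le_rfl, sq_nonneg _⟩
    · have : hN n g = (Yk n k b g - c) ^ 2 := Set.indicator_of_mem (by simpa using hg) _
      rw [this]
      exact ⟨sq_nonneg _, le_rfl⟩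
  have l1 : Tendsto (fun n : ℕ => ∫ g, hN n g ∂(disorder n)) atTop (𝓝 0) := by
    have e1 : ∀ n, ∫ g, hN n g ∂(disorder n) = ∫ ω, hN n (gg n ω) ∂Q := by
      intro n
      rw [← hgg n, integral_map (hgm n).aemeasurable (hm n).aestronglyMeasurable]
    simp_rw [e1]
    have e2 : ∫ _ : Ω, (0 : ℝ) ∂Q = 0 := by simp
    rw [← e2]
    refine tendsto_integral_of_dominated_convergence (fun _ => D)
      (fun n => ((hm n).comp (hgm n)).aestronglyMeasurable) (integrable_const D)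
      (fun n => Eventually.of_forall fun ω => ?_) ?_
    · rw [Real.norm_eq_abs]
      exact hb n _
    · filter_upwards [h] with ω hω
      have h1 : Tendsto (fun n : ℕ => (Yk n k b (gg n ω) - c) ^ 2) atTop (𝓝 0) := by
        have := (hω.sub_const c).pow 2
        simpa using this
      exact squeeze_zero (fun n => (hle n _).1) (fun n => (hle n _).2) h1
  -- the bad part
  have key : ∀ n : ℕ, 1 ≤ n → ∫ g, (Yk n k b g - c) ^ 2 ∂(disorder n) ≤
      ∫ g, hN n g ∂(disorder n) +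
      (20 * (A + c ^ 2) * (n : ℝ) ^ (2 * k + 4) * Real.exp (-((n : ℝ) / 1024)) +
        1 / n) := by
    intro n hn
    have hn0 : (0 : ℝ) < n := by exact_mod_cast hn
    have hn1 : (1 : ℝ) ≤ n := by exact_mod_cast hn
    obtain ⟨lam, hlam⟩ : ∃ lam : ℝ, lam = A * (n : ℝ) ^ (2 * k + 3) := ⟨_, rfl⟩
    have hl0 : 0 < lam := by rw [hlam]; positivity
    have hpw : ∀ g : Pair n → ℝ, (Yk n k b g - c) ^ 2 ≤ hN n g +
        ((2 * c ^ 2 + lam) * (BadQ n 2).indicator 1 g + 1 / lam * fr k g ^ 2) := by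
      intro g
      have hf := fr_nonneg k g
      by_cases hg : g ∈ BadQ n 2
      · have e1 : hN n g = 0 := Set.indicator_of_notMem (by simpa using hg) _
        have e2 : (BadQ n 2).indicator (1 : (Pair n → ℝ) → ℝ) g = 1 := by simp [hg]
        rw [e1, e2]
        have h1 := Yk_sq_le k b g
        have h2 : (Yk n k b g - c) ^ 2 ≤ 2 * Yk n k b g ^ 2 + 2 * c ^ 2 := by
          nlinarith [sq_nonneg (Yk n k b g + c)]
        have h3 : 2 * fr k g ≤ lam + 1 / lam * fr k g ^ 2 := by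
          have h4 : 0 ≤ (fr k g - lam) ^ 2 / lam := by positivity
          have h5 : (fr k g - lam) ^ 2 / lam = lam + 1 / lam * fr k g ^ 2 - 2 * fr k g := by
            field_simp
            ring
          linarith
        linarith
      · have e1 : hN n g = (Yk n k b g - c) ^ 2 := Set.indicator_of_mem (by simpa using hg) _
        have e2 : (BadQ n 2).indicator (1 : (Pair n → ℝ) → ℝ) g = 0 := by simp [hg]
        rw [e1, e2]
        have : 0 ≤ 1 / lam * fr k g ^ 2 := by positivity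
        linarith
    have i1 : Integrable (hN n) (gpi (Pair n)) :=
      Integrable.mono' (integrable_const D) (hm n).aestronglyMeasurable
        (Eventually.of_forall fun g => by rw [Real.norm_eq_abs]; exact hb n g)
    have i2 : Integrable ((BadQ n 2).indicator (1 : (Pair n → ℝ) → ℝ)) (gpi (Pair n)) :=
      (integrable_const (1 : ℝ)).indicator (measurable_BadQ n 2)
    have i3 : Integrable (fun g : Pair n → ℝ => fr k g ^ 2) (gpi (Pair n)) :=
      ((fr_dom k).pow 2).integrable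
    have i4 : Integrable (fun g : Pair n → ℝ => (Yk n k b g - c) ^ 2) (gpi (Pair n)) :=
      (((Yk_dom k b).sub (Dom.const c)).pow 2).integrable
    have h1 := integral_mono i4 (i1.add ((i2.const_mul _).add (i3.const_mul (1 / lam)))) hpw
    have e1 : ∫ g, (hN n g + ((2 * c ^ 2 + lam) * (BadQ n 2).indicator 1 g +
        1 / lam * fr k g ^ 2)) ∂(gpi (Pair n)) = ∫ g, hN n g ∂(gpi (Pair n)) +
        ((2 * c ^ 2 + lam) * (gpi (Pair n)).real (BadQ n 2) +
          1 / lam * ∫ g : Pair n → ℝ, fr k g ^ 2 ∂(gpi (Pair n))) := by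
      have i5 : Integrable (fun g : Pair n → ℝ => (2 * c ^ 2 + lam) *
          (BadQ n 2).indicator (1 : (Pair n → ℝ) → ℝ) g) (gpi (Pair n)) := i2.const_mul _
      have i6 : Integrable (fun g : Pair n → ℝ => 1 / lam * fr k g ^ 2) (gpi (Pair n)) :=
        i3.const_mul _
      have i7 : Integrable (fun g : Pair n → ℝ => (2 * c ^ 2 + lam) *
          (BadQ n 2).indicator (1 : (Pair n → ℝ) → ℝ) g + 1 / lam * fr k g ^ 2)
          (gpi (Pair n)) := i5.add i6
      rw [integral_add i1 i7, integral_add i5 i6, integral_const_mul, integral_const_mul,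
        integral_indicator_one (measurable_BadQ n 2)]
    have h2 : ∫ g, (Yk n k b g - c) ^ 2 ∂(gpi (Pair n)) ≤ ∫ g, hN n g ∂(gpi (Pair n)) +
        ((2 * c ^ 2 + lam) * (gpi (Pair n)).real (BadQ n 2) +
          1 / lam * ∫ g : Pair n → ℝ, fr k g ^ 2 ∂(gpi (Pair n))) := by
      rw [← e1]
      exact h1
    have h3 := badQ_le (n := n) hn (q := 2) (by norm_num) (by norm_num)
    have e2 : ((2 : ℝ) + 2⁻¹ - 2) ^ 2 / 256 * n = n / 1024 := by ring
    rw [e2] at h3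
    have h4 : ∫ g : Pair n → ℝ, fr k g ^ 2 ∂(gpi (Pair n)) ≤ A * (n : ℝ) ^ (2 * k + 2) := by
      rw [hA]
      exact (cheb_moment n k).trans (mom_le hn k)
    have h5 : 1 / lam * ∫ g : Pair n → ℝ, fr k g ^ 2 ∂(gpi (Pair n)) ≤ 1 / n := by
      refine (mul_le_mul_of_nonneg_left h4 (by positivity)).trans (le_of_eq ?_)
      rw [hlam]
      have hA0 : A ≠ 0 := by linarith
      field_simp
      ring
    have h6 : (2 * c ^ 2 + lam) * (gpi (Pair n)).real (BadQ n 2) ≤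
        20 * (A + c ^ 2) * (n : ℝ) ^ (2 * k + 4) * Real.exp (-((n : ℝ) / 1024)) := by
      have e3 := Real.exp_pos (-((n : ℝ) / 1024))
      have h7 : 2 * c ^ 2 + lam ≤ 2 * (A + c ^ 2) * (n : ℝ) ^ (2 * k + 3) := by
        have h8 : (1 : ℝ) ≤ (n : ℝ) ^ (2 * k + 3) := one_le_pow₀ hn1
        rw [hlam]
        have h9 : 0 ≤ c ^ 2 := sq_nonneg c
        nlinarith
      calc (2 * c ^ 2 + lam) * (gpi (Pair n)).real (BadQ n 2)
          ≤ 2 * (A + c ^ 2) * (n : ℝ) ^ (2 * k + 3) *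
            (10 * n * Real.exp (-((n : ℝ) / 1024))) :=
            mul_le_mul h7 h3 measureReal_nonneg (by positivity)
        _ = _ := by rw [pow_succ (n : ℝ) (2 * k + 3)]; ring
    show ∫ g, (Yk n k b g - c) ^ 2 ∂(gpi (Pair n)) ≤ ∫ g, hN n g ∂(gpi (Pair n)) + _
    linarith
  have l2 : Tendsto (fun n : ℕ => ∫ g, hN n g ∂(disorder n) +
      (20 * (A + c ^ 2) * (n : ℝ) ^ (2 * k + 4) * Real.exp (-((n : ℝ) / 1024)) +
        1 / n)) atTop (𝓝 0) := by
    have h1 := l1.add ((lim_poly (20 * (A + c ^ 2)) (2 * k + 4)).add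
      tendsto_one_div_atTop_nhds_zero_nat)
    simpa using h1
  refine tendsto_of_tendsto_of_tendsto_of_le_of_le' tendsto_const_nhds l2
    (Eventually.of_forall fun n => integral_nonneg fun g => sq_nonneg _) ?_
  filter_upwards [eventually_ge_atTop 1] with n hn
  exact key n hn

end Vale.Agent.P146.R3.H501
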