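import Vale.Agent.P146.Bdl.B2
import Vale.Agent.P150.Bdl.B9
import Vale.Agent.P150.Bdl.B11

set_option linter.all false

/-!
# P146: the largest eigenvalue of `W = (G + Gᵀ) / √(2N)` (Sudakov-Fernique and concentration)
-/

open MeasureTheory ProbabilityTheory Finset Matrix Filter Topology
open Vale.Agent.P157.Lv (gI)
open Vale.Agent.P146.Sk (Ix Wm)

namespace Vale.Agent.P146.R3.H501.LamMax

variable {N : ℕ}

/-- the coefficients of the quadratic form -/
noncomputable def ca (v : Fin N → ℝ) (e : Ix N) : ℝ := 2 * (v e.1 * v e.2) / √(2 * (N : ℝ))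

/-- the coefficients of the comparison process -/
noncomputable def cb (v : Fin N → ℝ) (i : Fin N) : ℝ := 2 * v i / √(N : ℝ)

lemma qf_eq (v : Fin N → ℝ) (g : Ix N → ℝ) :
    v ⬝ᵥ (Wm N g *ᵥ v) = ∑ e, ca v e * g e := by
  rw [Fintype.sum_prod_type]
  simp only [dotProduct, Matrix.mulVec, Wm, Matrix.of_apply, ca]
  have h1 : ∀ i : Fin N, v i * ∑ j, (g (i, j) + g (j, i)) / √(2 * (N : ℝ)) * v j
      = ∑ j, v i * v j / √(2 * (N : ℝ)) * g (i, j)
        + ∑ j, v i * v j / √(2 * (N : ℝ)) * g (j, i) := by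
    intro i
    rw [Finset.mul_sum, ← Finset.sum_add_distrib]
    exact Finset.sum_congr rfl fun j _ => by ring
  simp only [h1, Finset.sum_add_distrib]
  have h2 : ∑ i : Fin N, ∑ j : Fin N, v i * v j / √(2 * (N : ℝ)) * g (j, i)
      = ∑ i : Fin N, ∑ j : Fin N, v i * v j / √(2 * (N : ℝ)) * g (i, j) := by
    rw [Finset.sum_comm]
    exact Finset.sum_congr rfl fun i _ => Finset.sum_congr rfl fun j _ => by ring
  rw [h2, ← Finset.sum_add_distrib]
  refine Finset.sum_congr rfl fun i _ => ?_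
  rw [← Finset.sum_add_distrib]
  exact Finset.sum_congr rfl fun j _ => by ring

lemma sum_prod_sq (v w : Fin N → ℝ) :
    ∑ e : Ix N, (v e.1 * v e.2) * (w e.1 * w e.2) = (v ⬝ᵥ w) ^ 2 := by
  rw [Fintype.sum_prod_type, pow_two, dotProduct, Finset.sum_mul_sum]
  exact Finset.sum_congr rfl fun i _ => Finset.sum_congr rfl fun j _ => by ring

lemma ca_sq (hN : 0 < N) {v : Fin N → ℝ} (hv : v ⬝ᵥ v = 1) : ∑ e, ca v e ^ 2 = 2 / N := by
  have hN' : (0 : ℝ) < N := by exact_mod_cast hN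
  have h1 : ∀ e : Ix N, ca v e ^ 2 = 2 / N * ((v e.1 * v e.2) * (v e.1 * v e.2)) := by
    intro e
    rw [ca, div_pow, Real.sq_sqrt (by positivity)]
    field_simp
  simp only [h1]
  rw [← Finset.mul_sum, sum_prod_sq, hv]
  ring

lemma inc (hN : 0 < N) {v w : Fin N → ℝ} (hv : v ⬝ᵥ v = 1) (hw : w ⬝ᵥ w = 1) :
    ∑ e, (ca v e - ca w e) ^ 2 ≤ ∑ i, (cb v i - cb w i) ^ 2 := by
  have hN' : (0 : ℝ) < N := by exact_mod_cast hN
  have h1 : ∀ e : Ix N, (ca v e - ca w e) ^ 2 = 2 / N * ((v e.1 * v e.2) * (v e.1 * v e.2))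
      + 2 / N * ((w e.1 * w e.2) * (w e.1 * w e.2))
      - 4 / N * ((v e.1 * v e.2) * (w e.1 * w e.2)) := by
    intro e
    rw [ca, ca, ← sub_div, div_pow, Real.sq_sqrt (by positivity)]
    field_simp
    ring
  have h2 : ∑ e, (ca v e - ca w e) ^ 2 = 4 / N * (1 - (v ⬝ᵥ w) ^ 2) := by
    simp only [h1]
    rw [Finset.sum_sub_distrib, Finset.sum_add_distrib, ← Finset.mul_sum, ← Finset.mul_sum,
      ← Finset.mul_sum, sum_prod_sq, sum_prod_sq, sum_prod_sq, hv, hw]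
    ring
  have h3 : ∀ i, (cb v i - cb w i) ^ 2 = 4 / N * (v i * v i + w i * w i - 2 * (v i * w i)) := by
    intro i
    rw [cb, cb, ← sub_div, div_pow, Real.sq_sqrt (by positivity)]
    field_simp
    ring
  have h4 : ∑ i, (cb v i - cb w i) ^ 2 = 4 / N * (2 - 2 * (v ⬝ᵥ w)) := by
    simp only [h3]
    rw [← Finset.mul_sum, Finset.sum_sub_distrib, Finset.sum_add_distrib, ← Finset.mul_sum]
    have e1 : ∑ i, v i * v i = 1 := hv
    have e2 : ∑ i, w i * w i = 1 := hw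
    rw [e1, e2, dotProduct]
    ring
  rw [h2, h4]
  refine mul_le_mul_of_nonneg_left ?_ (by positivity)
  linarith only [sq_nonneg (1 - v ⬝ᵥ w)]

lemma sf {S : Type} [Fintype S] [Nonempty S] (hN : 0 < N) (v : S → Fin N → ℝ)
    (hv : ∀ s, v s ⬝ᵥ v s = 1) :
    ∫ g, ⨆ s, ∑ e, ca (v s) e * g e ∂(gI (Ix N)) ≤ 2 := by
  have hN' : (0 : ℝ) < N := by exact_mod_cast hN
  have h1 := Vale.Agent.P150.F.sup_le_pen (fun s => ca (v s)) (fun s => cb (v s))
    (fun _ => (0 : ℝ)) (fun s t => inc hN (hv s) (hv t))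
  simp only [sub_zero] at h1
  refine h1.trans ?_
  have i1 : Integrable (fun g : Fin N → ℝ => ⨆ s, ∑ e, cb (v s) e * g e)
      (Measure.pi fun _ : Fin N => gaussianReal 0 1) := by
    have := Vale.Agent.P150.F.integrable_pen (fun s => cb (v s)) (fun _ => (0 : ℝ))
    simpa only [sub_zero] using this
  have i2 : Integrable (fun g : Fin N → ℝ => 1 + (∑ i, g i ^ 2) / N)
      (Measure.pi fun _ : Fin N => gaussianReal 0 1) :=
    (integrable_const _).add
      ((integrable_finsetSum _ fun i _ => Vale.Agent.P150.F.integrable_sq_coord i).div_const _)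
  refine (integral_mono i1 i2 fun g => ciSup_le fun s => ?_).trans (le_of_eq ?_)
  · have e1 : ∀ i, cb (v s) i * g i ≤ v s i * v s i + g i ^ 2 / N := by
      intro i
      have e2 : cb (v s) i * g i = 2 * (v s i) * (g i / √(N : ℝ)) := by
        rw [cb]; ring
      have e3 : g i ^ 2 / N = (g i / √(N : ℝ)) ^ 2 := by
        rw [div_pow, Real.sq_sqrt hN'.le]
      rw [e2, e3]
      linarith only [sq_nonneg (v s i - g i / √(N : ℝ))]
    have e4 : ∑ i, v s i * v s i = 1 := hv s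
    calc ∑ e, cb (v s) e * g e ≤ ∑ i, (v s i * v s i + g i ^ 2 / N) :=
          Finset.sum_le_sum fun i _ => e1 i
      _ = 1 + (∑ i, g i ^ 2) / N := by
          rw [Finset.sum_add_distrib, e4, Finset.sum_div]
  · rw [integral_add (integrable_const _)
      ((integrable_finsetSum _ fun i _ => Vale.Agent.P150.F.integrable_sq_coord i).div_const _),
      integral_div, integral_finsetSum _ fun i _ => Vale.Agent.P150.F.integrable_sq_coord i]
    simp only [Vale.Agent.P150.F.integral_sq_coord]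
    simp only [integral_const, probReal_univ, smul_eq_mul, one_mul, Finset.sum_const,
      Finset.card_univ, Fintype.card_fin, nsmul_eq_mul, mul_one]
    rw [div_self hN'.ne']
    norm_num

lemma fin_tail {S : Type} [Fintype S] [Nonempty S] (hN : 0 < N) (v : S → Fin N → ℝ)
    (hv : ∀ s, v s ⬝ᵥ v s = 1) {t : ℝ} (ht : 0 ≤ t) :
    (gI (Ix N)).real {g | ∃ s, 2 + t < ∑ e, ca (v s) e * g e} ≤ Real.exp (-(N * t ^ 2 / 8)) := by
  have hN' : (0 : ℝ) < N := by exact_mod_cast hN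
  have hL0 : 0 < √(2 / (N : ℝ)) := Real.sqrt_pos.2 (by positivity)
  have hLip : Vale.Agent.P150.F.Lip (√(2 / (N : ℝ)))
      (fun g : Ix N → ℝ => ⨆ s, ∑ e, ca (v s) e * g e) := by
    refine Vale.Agent.P150.F.Lip.iSup_fin fun s => ?_
    have h1 := Vale.Agent.P150.F.Lip.lin (ca (v s))
    rwa [ca_sq hN (hv s)] at h1
  have h2 := hLip.tail hL0 ht
  have h3 : t ^ 2 / (4 * √(2 / (N : ℝ)) ^ 2) = N * t ^ 2 / 8 := by
    rw [Real.sq_sqrt (by positivity)]
    field_simp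
    ring
  rw [h3] at h2
  refine le_trans ?_ h2
  refine measureReal_mono ?_
  rintro g ⟨s, hs⟩
  have h4 : ∑ e, ca (v s) e * g e ≤ ⨆ s, ∑ e, ca (v s) e * g e :=
    le_ciSup (f := fun s => ∑ e, ca (v s) e * g e) (Set.finite_range _).bddAbove s
  have h5 := sf hN v hv
  show (∫ g, ⨆ s, ∑ e, ca (v s) e * g e ∂(gI (Ix N))) + t ≤ ⨆ s, ∑ e, ca (v s) e * g e
  linarith only [h4, h5, hs]

/-- the unit sphere -/
abbrev Sph (N : ℕ) : Type := {v : Fin N → ℝ // v ⬝ᵥ v = 1}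

theorem all_tail (hN : 0 < N) {t : ℝ} (ht : 0 ≤ t) :
    (gI (Ix N)).real {g | ∃ v : Fin N → ℝ, (2 + t) * (v ⬝ᵥ v) < v ⬝ᵥ (Wm N g *ᵥ v)} ≤
      Real.exp (-(N * t ^ 2 / 8)) := by
  classical
  have hne : Nonempty (Sph N) := by
    refine ⟨⟨fun i => if i = ⟨0, hN⟩ then 1 else 0, ?_⟩⟩
    simp [dotProduct]
  set D : ℕ → Sph N := TopologicalSpace.denseSeq _ with hD
  set B : ℕ → Set (Ix N → ℝ) := fun M =>
    {g | ∃ s : Fin (M + 1), 2 + t < ∑ e, ca (D s).1 e * g e} with hB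
  have hmono : Monotone B := by
    intro M M' hMM g hg
    obtain ⟨s, hs⟩ := hg
    exact ⟨⟨s, s.2.trans_le (by omega)⟩, hs⟩
  have hsub : {g : Ix N → ℝ | ∃ v : Fin N → ℝ, (2 + t) * (v ⬝ᵥ v) < v ⬝ᵥ (Wm N g *ᵥ v)}
      ⊆ ⋃ M, B M := by
    rintro g ⟨v, hv⟩
    have hvv : 0 < v ⬝ᵥ v := by
      have h0 : 0 ≤ v ⬝ᵥ v := Finset.sum_nonneg fun i _ => mul_self_nonneg (v i)
      rcases h0.eq_or_lt with h | h
      · exfalso
        have h1 : v = 0 := by
          ext i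
          have h2 := (Finset.sum_eq_zero_iff_of_nonneg
            (fun i _ => mul_self_nonneg (v i))).1 h.symm i (Finset.mem_univ i)
          exact mul_self_eq_zero.1 h2
        rw [h1] at hv
        simp at hv
      · exact h
    set c : ℝ := √(v ⬝ᵥ v) with hc
    have hc0 : 0 < c := Real.sqrt_pos.2 hvv
    have hcc : c * c = v ⬝ᵥ v := Real.mul_self_sqrt hvv.le
    have hu : (c⁻¹ • v) ⬝ᵥ (c⁻¹ • v) = 1 := by
      rw [smul_dotProduct, dotProduct_smul, smul_eq_mul, smul_eq_mul, ← hcc]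
      field_simp
    have hu2 : 2 + t < ∑ e, ca (c⁻¹ • v) e * g e := by
      rw [← qf_eq, Matrix.mulVec_smul, smul_dotProduct, dotProduct_smul, smul_eq_mul, smul_eq_mul]
      rw [← hcc] at hv
      have h1 : (2 + t) * (c * c) < v ⬝ᵥ (Wm N g *ᵥ v) := hv
      have h2 : c⁻¹ * (c⁻¹ * ((2 + t) * (c * c))) < c⁻¹ * (c⁻¹ * (v ⬝ᵥ (Wm N g *ᵥ v))) := by
        have hi : 0 < c⁻¹ := inv_pos.2 hc0
        exact mul_lt_mul_of_pos_left (mul_lt_mul_of_pos_left h1 hi) hi
      have h3 : c⁻¹ * (c⁻¹ * ((2 + t) * (c * c))) = 2 + t := by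
        field_simp
      rwa [h3] at h2
    have hcont : Continuous fun w : Sph N => ∑ e, ca w.1 e * g e := by
      refine continuous_finset_sum _ fun e _ => Continuous.mul ?_ continuous_const
      unfold ca
      refine Continuous.div_const (Continuous.mul continuous_const ?_) _
      exact ((continuous_apply e.1).comp continuous_subtype_val).mul
        ((continuous_apply e.2).comp continuous_subtype_val)
    have hopen : IsOpen {w : Sph N | 2 + t < ∑ e, ca w.1 e * g e} :=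
      isOpen_lt continuous_const hcont
    obtain ⟨W, hW1, ⟨M, hM⟩⟩ := (TopologicalSpace.denseRange_denseSeq
      (Sph N)).inter_open_nonempty _ hopen ⟨⟨c⁻¹ • v, hu⟩, hu2⟩
    refine Set.mem_iUnion.2 ⟨M, ⟨⟨M, Nat.lt_succ_self M⟩, ?_⟩⟩
    have : (D M) = W := hM
    simp only [this]
    exact hW1
  have hle : ∀ M, gI (Ix N) (B M) ≤ ENNReal.ofReal (Real.exp (-(N * t ^ 2 / 8))) := by
    intro M
    have h1 := fin_tail (S := Fin (M + 1)) hN (fun s => (D s).1) (fun s => (D s).2) ht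
    exact (ENNReal.le_ofReal_iff_toReal_le (measure_ne_top _ _) (Real.exp_pos _).le).2 h1
  have h2 : gI (Ix N) (⋃ M, B M) ≤ ENNReal.ofReal (Real.exp (-(N * t ^ 2 / 8))) := by
    rw [hmono.measure_iUnion]
    exact iSup_le hle
  refine (measureReal_mono hsub).trans ?_
  exact ENNReal.toReal_le_of_le_ofReal (Real.exp_pos _).le h2

end Vale.Agent.P146.R3.H501.LamMax

namespace Vale.Agent.P146.R3.H501

open LamMax

/-- **The largest eigenvalue of `W`.** -/
theorem lam_max : ∃ C : ℝ, 0 < C ∧ ∀ (N : ℕ) (s : ℝ), 0 < N → 0 < s →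
    (gI (Ix N)).real {g | ∃ v : Fin N → ℝ, (2 + s) * (v ⬝ᵥ v) < v ⬝ᵥ (Wm N g *ᵥ v)} ≤
      C / (N * s ^ 2) := by
  refine ⟨8, by norm_num, fun N s hN hs => (all_tail hN hs.le).trans ?_⟩
  have hN' : (0 : ℝ) < N := by exact_mod_cast hN
  have h0 : 0 < (N : ℝ) * s ^ 2 / 8 := by positivity
  have h1 : (N : ℝ) * s ^ 2 / 8 ≤ Real.exp (N * s ^ 2 / 8) := by
    linarith only [Real.add_one_le_exp ((N : ℝ) * s ^ 2 / 8)]
  rw [Real.exp_neg]
  have h2 : (Real.exp ((N : ℝ) * s ^ 2 / 8))⁻¹ ≤ ((N : ℝ) * s ^ 2 / 8)⁻¹ :=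
    inv_anti₀ h0 h1
  refine h2.trans (le_of_eq ?_)
  rw [inv_div]

end Vale.Agent.P146.R3.H501
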