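import Vale.Agent.P146.R3.H501.Frm
import Vale.Agent.P146.R3.H501.Conv
import Vale.Agent.P146.R3.H501.L2

/-!
# P146: the limit of `n⁻¹ ⟨σ·U_k(W)σ⟩` is the derivative of the variational value
-/

namespace Vale.Agent.P146.R3.H501

open MeasureTheory Matrix Filter Topology Vale.Agent.P166 Vale.Agent.P166.H295 Vale.Agent.P146
open Vale.Agent.P146.R2.H432 (cheb WW)

/-- `gg N ω` is the disorder, `J N ω` the Gaussian orthogonal ensemble with the same off-diagonal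
part, on one probability space. -/
theorem n4 {Ω : Type} [MeasurableSpace Ω] (Q : Measure Ω) [IsProbabilityMeasure Q]
    (J : (N : ℕ) → Ω → Matrix (Fin N) (Fin N) ℝ) (gg : (N : ℕ) → Ω → Pair N → ℝ)
    (hgm : ∀ N, Measurable (gg N)) (hgg : ∀ N, Q.map (gg N) = disorder N)
    (hoff : ∀ N ω (i j : Fin N), i ≠ j → J N ω i j = WW (gg N ω) i j) (b : ℝ) (k : ℕ)
    (hdiff : ∀ᵐ ω ∂Q, ∀ ε : ℝ, 0 < ε → ∀ᶠ N : ℕ in atTop, ∀ σ ∈ cb N,
      |qf (cheb k (J N ω) - cheb k (WW (gg N ω))) σ| ≤ ε * N)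
    (hp : ∀ s, IsProbabilityMeasure (muS b k s)) (hc : ∀ s, IsCompact (muS b k s).support)
    (hens : ∀ s, InvariantEnsemble Q (fun N ω => b • J N ω + (2 * s) • cheb k (J N ω))
      (muS b k s)) :
    ∃ f : ℝ → ℝ, ConvexOn ℝ Set.univ f ∧ (∀ s, IsGLB (PV 1 (muS b k s)) (f s)) ∧
      ∀ c, HasDerivAt f c 0 →
        (∀ᵐ ω ∂Q, Tendsto (fun N : ℕ => Yk N k b (gg N ω)) atTop (𝓝 c)) ∧
        Tendsto (fun n : ℕ => ∫ g, (Yk n k b g - c) ^ 2 ∂(disorder n)) atTop (𝓝 0) := by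
  obtain ⟨f, hf, hl⟩ := exists_lim b k hp hc
  have h1 := hl Ω Q (fun N ω => b • J N ω) (fun N ω => cheb k (J N ω)) hens
  refine ⟨f, convex_f Q (fun N ω => b • J N ω) (fun N ω => cheb k (J N ω)) f h1, hf,
    fun c hd => ?_⟩
  have h2 := as_Yk Q J gg b k hoff hdiff
    (deriv_f Q (fun N ω => b • J N ω) (fun N ω => cheb k (J N ω)) f hd h1)
  exact ⟨h2, l2_Yk Q gg hgm hgg b k h2⟩

end Vale.Agent.P146.R3.H501
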